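import Mathlib

namespace Vale.Agent.P371S

open MeasureTheory Set Filter Topology

theorem hasDerivAt_zero_of_sq {G f : ℝ → ℝ} {f' x C : ℝ} (hf : HasDerivAt f f' x)
    (hfx : f x = 0) (hG : ∀ y, |G y| ≤ C * f y ^ 2) (hGx : G x = 0) : HasDerivAt G 0 x := by
  rw [hasDerivAt_iff_isLittleO]
  simp only [hGx, sub_zero, smul_zero]
  have h1 : (fun y => f y) =O[𝓝 x] fun y => y - x := by
    have := hf.isBigO_sub
    simpa [hfx] using this
  have h2 : (fun y => f y) =o[𝓝 x] fun _ => (1 : ℝ) := by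
    rw [Asymptotics.isLittleO_one_iff]
    have := hf.continuousAt.tendsto
    rwa [hfx] at this
  have h3 : (fun y => f y * f y) =o[𝓝 x] fun y => 1 * (y - x) := h2.mul_isBigO h1
  simp only [one_mul] at h3
  refine Asymptotics.IsBigO.trans_isLittleO ?_ h3
  refine Asymptotics.IsBigO.of_bound C (Eventually.of_forall fun y => ?_)
  rw [Real.norm_eq_abs, Real.norm_eq_abs, abs_mul_self, ← sq]
  exact hG y

theorem poinc_aux (P : Set ℝ) (hP : IsOpen P) (ρ : ℝ → ℝ) (hρc : Continuous ρ)
    (hρ : ∀ x, 0 < ρ x) (hρi : Integrable ρ) (f f' : ℝ → ℝ) (hf : ∀ x, HasDerivAt f (f' x) x)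
    (hf'c : Continuous f') (hf0 : ∀ x ∈ frontier P, f x = 0)
    (hbot : Tendsto f atBot (𝓝 0)) (htop : Tendsto f atTop (𝓝 0))
    (hi : IntegrableOn (fun x => f' x ^ 2 / ρ x) P)
    (hi2 : IntegrableOn (fun x => f x ^ 2 * ρ x) P) (ω : ℝ) (hω : 0 < ω)
    (hωp : ω * ∫ x in P, ρ x < Real.pi) :
    ω ^ 2 * ∫ x in P, f x ^ 2 * ρ x ≤ ∫ x in P, f' x ^ 2 / ρ x := by
  have hPm : MeasurableSet P := hP.measurableSet
  have hfc : Continuous f := continuous_iff_continuousAt.2 fun x => (hf x).continuousAt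
  set p : ℝ := ∫ x in P, ρ x with hp
  set δ : ℝ := (Real.pi - ω * p) / 2 with hδ
  have hδ0 : 0 < δ := by rw [hδ]; linarith
  have hind : Integrable (P.indicator ρ) := hρi.indicator hPm
  set m : ℝ → ℝ := fun x => ∫ y in Iic x, P.indicator ρ y with hm
  have hm0 : ∀ x, 0 ≤ m x := fun x => integral_nonneg fun y => indicator_nonneg (fun z _ => (hρ z).le) y
  have hm1 : ∀ x, m x ≤ p := by
    intro x
    rw [hp, ← integral_indicator hPm]
    exact setIntegral_le_integral hind
      (Eventually.of_forall fun y => indicator_nonneg (fun z _ => (hρ z).le) y)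
  have hmd : ∀ x ∈ P, HasDerivAt m (ρ x) x := by
    intro x hx
    have h1 : m = fun x => m 0 + ∫ y in (0 : ℝ)..x, P.indicator ρ y := by
      funext z
      have := intervalIntegral.integral_Iic_sub_Iic (a := 0) (b := z) (f := P.indicator ρ)
        (μ := volume) hind.integrableOn hind.integrableOn
      rw [← this]
      simp [hm]
    have hcont : ContinuousAt (P.indicator ρ) x := by
      have : P.indicator ρ =ᶠ[𝓝 x] ρ := by
        filter_upwards [hP.mem_nhds hx] with y hy
        exact indicator_of_mem hy ρ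
      exact (continuousAt_congr this).2 hρc.continuousAt
    have h2 : HasDerivAt (fun x => ∫ y in (0 : ℝ)..x, P.indicator ρ y) (P.indicator ρ x) x :=
      intervalIntegral.integral_hasDerivAt_right hind.intervalIntegrable
        (hind.aestronglyMeasurable.stronglyMeasurableAtFilter) hcont
    rw [indicator_of_mem hx] at h2
    rw [h1]
    exact h2.const_add _
  have hmc : Continuous m := by
    have h1 : m = fun x => m 0 + ∫ y in (0 : ℝ)..x, P.indicator ρ y := by
      funext z
      have := intervalIntegral.integral_Iic_sub_Iic (a := 0) (b := z) (f := P.indicator ρ)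
        (μ := volume) hind.integrableOn hind.integrableOn
      rw [← this]
      simp [hm]
    rw [h1]
    exact continuous_const.add (intervalIntegral.continuous_primitive
      (fun a b => hind.intervalIntegrable) 0)
  set θ : ℝ → ℝ := fun x => δ + ω * m x with hθ
  have hθ0 : ∀ x, δ ≤ θ x := fun x => by
    have := mul_nonneg hω.le (hm0 x)
    simp only [hθ]; linarith
  have hθ1 : ∀ x, θ x ≤ Real.pi - δ := fun x => by
    have := mul_le_mul_of_nonneg_left (hm1 x) hω.le
    simp only [hθ]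
    rw [hδ]
    linarith
  have hδpi : δ ≤ Real.pi / 2 := by
    have := hθ0 0; have := hθ1 0; linarith
  have hsδ : 0 < Real.sin δ := Real.sin_pos_of_pos_of_lt_pi hδ0 (by linarith [Real.pi_pos])
  have hsin : ∀ x, Real.sin δ ≤ Real.sin (θ x) := by
    intro x
    rcases le_total (θ x) (Real.pi / 2) with h | h
    · exact Real.sin_le_sin_of_le_of_le_pi_div_two (by linarith [Real.pi_pos]) h (hθ0 x)
    · rw [← Real.sin_pi_sub (θ x)]
      exact Real.sin_le_sin_of_le_of_le_pi_div_two (by linarith [Real.pi_pos])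
        (by linarith) (by linarith [hθ1 x])
  have hsin0 : ∀ x, 0 < Real.sin (θ x) := fun x => lt_of_lt_of_le hsδ (hsin x)
  have hθc : Continuous θ := continuous_const.add (continuous_const.mul hmc)
  set ζ : ℝ → ℝ := fun x => ω * (Real.cos (θ x) / Real.sin (θ x)) with hζ
  have hζc : Continuous ζ := continuous_const.mul
    ((Real.continuous_cos.comp hθc).div (Real.continuous_sin.comp hθc) fun x => (hsin0 x).ne')
  set C : ℝ := ω / Real.sin δ with hC
  have hC0 : 0 < C := div_pos hω hsδ
  have hζb : ∀ x, |ζ x| ≤ C := by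
    intro x
    simp only [hζ]
    rw [abs_mul, abs_div, abs_of_pos hω, abs_of_pos (hsin0 x), hC, div_eq_mul_inv ω]
    refine mul_le_mul_of_nonneg_left ?_ hω.le
    rw [div_le_iff₀ (hsin0 x), inv_mul_eq_div, le_div_iff₀ hsδ]
    have h1 := Real.abs_cos_le_one (θ x)
    have h2 := hsin x
    nlinarith [abs_nonneg (Real.cos (θ x))]
  have hζd : ∀ x ∈ P, HasDerivAt ζ (-(ω ^ 2 * ρ x / Real.sin (θ x) ^ 2)) x := by
    intro x hx
    have h1 : HasDerivAt θ (ω * ρ x) x := ((hmd x hx).const_mul ω).const_add δ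
    have h2 := (h1.cos.div h1.sin (hsin0 x).ne').const_mul ω
    refine h2.congr_deriv ?_
    have hs := (hsin0 x).ne'
    field_simp
    have := Real.sin_sq_add_cos_sq (θ x)
    ring_nf
    ring_nf at this
    linear_combination (-(ρ x)) * this
  set G : ℝ → ℝ := P.indicator fun x => ζ x * f x ^ 2 with hG
  set G' : ℝ → ℝ := P.indicator fun x =>
    -(ω ^ 2 * ρ x / Real.sin (θ x) ^ 2) * f x ^ 2 + ζ x * (2 * f x * f' x) with hG'
  have hGb : ∀ y, |G y| ≤ C * f y ^ 2 := by
    intro y
    simp only [hG]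
    by_cases hy : y ∈ P
    · rw [indicator_of_mem hy, abs_mul, abs_of_nonneg (sq_nonneg (f y))]
      exact mul_le_mul_of_nonneg_right (hζb y) (sq_nonneg _)
    · rw [indicator_of_notMem hy, abs_zero]
      positivity
  have hGd : ∀ x, HasDerivAt G (G' x) x := by
    intro x
    by_cases hx : x ∈ P
    · have h1 : G =ᶠ[𝓝 x] fun x => ζ x * f x ^ 2 := by
        filter_upwards [hP.mem_nhds hx] with y hy
        exact indicator_of_mem hy _
      have h2 : G' x = -(ω ^ 2 * ρ x / Real.sin (θ x) ^ 2) * f x ^ 2 + ζ x * (2 * f x * f' x) :=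
        indicator_of_mem hx _
      rw [h2]
      refine HasDerivAt.congr_of_eventuallyEq ?_ h1
      have h3 := (hζd x hx).mul ((hf x).pow 2)
      refine h3.congr_deriv ?_
      simp
    · have h2 : G' x = 0 := indicator_of_notMem hx _
      rw [h2]
      by_cases hxc : x ∈ closure P
      · have hfr : x ∈ frontier P := by
          rw [hP.frontier_eq]
          exact ⟨hxc, hx⟩
        exact hasDerivAt_zero_of_sq (hf x) (hf0 x hfr) hGb (indicator_of_notMem hx _)
      · have h1 : G =ᶠ[𝓝 x] fun _ => 0 := by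
          filter_upwards [isClosed_closure.isOpen_compl.mem_nhds hxc] with y hy
          exact indicator_of_notMem (fun h => hy (subset_closure h)) _
        exact (hasDerivAt_const x (0 : ℝ)).congr_of_eventuallyEq h1
  have hGlim : ∀ l : Filter ℝ, Tendsto f l (𝓝 0) → Tendsto G l (𝓝 0) := by
    intro l hl
    have h1 : Tendsto (fun y => C * f y ^ 2) l (𝓝 0) := by
      have := (hl.pow 2).const_mul C
      simpa using this
    exact squeeze_zero_norm hGb h1
  have hG'm : AEStronglyMeasurable G' volume := by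
    refine (Continuous.aestronglyMeasurable ?_).indicator hPm
    refine ((continuous_const.mul hρc).div ((Real.continuous_sin.comp hθc).pow 2)
      (fun x => pow_ne_zero 2 (hsin0 x).ne')).neg.mul (hfc.pow 2) |>.add ?_
    exact hζc.mul ((continuous_const.mul hfc).mul hf'c)
  have hG'i : Integrable G' := by
    have h1 : Integrable (P.indicator fun x => (C ^ 2 + C) * (f x ^ 2 * ρ x) +
        C * (f' x ^ 2 / ρ x)) := by
      rw [integrable_indicator_iff hPm]
      exact (hi2.const_mul _).add (hi.const_mul _)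
    refine h1.mono' hG'm (Eventually.of_forall fun x => ?_)
    by_cases hx : x ∈ P
    · simp only [hG', indicator_of_mem hx]
      have hρx := hρ x
      have e1 : |-(ω ^ 2 * ρ x / Real.sin (θ x) ^ 2) * f x ^ 2| ≤ C ^ 2 * (f x ^ 2 * ρ x) := by
        rw [abs_mul, abs_neg, abs_of_nonneg (sq_nonneg (f x)), abs_of_nonneg (by positivity)]
        have : ω ^ 2 * ρ x / Real.sin (θ x) ^ 2 ≤ C ^ 2 * ρ x := by
          rw [hC, div_pow, div_mul_eq_mul_div]
          refine div_le_div_of_nonneg_left (by positivity) (by positivity) ?_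
          exact pow_le_pow_left₀ hsδ.le (hsin x) 2
        calc _ ≤ (C ^ 2 * ρ x) * f x ^ 2 := mul_le_mul_of_nonneg_right this (sq_nonneg _)
          _ = _ := by ring
      have e2 : |ζ x * (2 * f x * f' x)| ≤ C * (f x ^ 2 * ρ x + f' x ^ 2 / ρ x) := by
        rw [abs_mul]
        refine mul_le_mul (hζb x) ?_ (abs_nonneg _) hC0.le
        have h3 : f' x ^ 2 / ρ x = (f' x / √(ρ x)) ^ 2 := by
          rw [div_pow, Real.sq_sqrt hρx.le]
        have h4 : f x ^ 2 * ρ x = (f x * √(ρ x)) ^ 2 := by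
          rw [mul_pow, Real.sq_sqrt hρx.le]
        have h5 : 2 * f x * f' x = 2 * (f x * √(ρ x)) * (f' x / √(ρ x)) := by
          have : √(ρ x) ≠ 0 := (Real.sqrt_pos.2 hρx).ne'
          field_simp
        rw [h3, h4, h5, abs_le]
        constructor <;> nlinarith [sq_nonneg (f x * √(ρ x) + f' x / √(ρ x)),
          sq_nonneg (f x * √(ρ x) - f' x / √(ρ x))]
      rw [Real.norm_eq_abs]
      refine (abs_add_le _ _).trans ?_
      linarith
    · simp only [hG', indicator_of_notMem hx]
      simp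
  have hint : ∫ x, G' x = 0 := by
    have := integral_of_hasDerivAt_of_tendsto hGd hG'i (hGlim _ hbot) (hGlim _ htop)
    simpa using this
  have hmain : 0 ≤ ∫ x in P, (f' x ^ 2 / ρ x - ω ^ 2 * (f x ^ 2 * ρ x) - G' x) := by
    refine setIntegral_nonneg hPm fun x hx => ?_
    have h2 : G' x = -(ω ^ 2 * ρ x / Real.sin (θ x) ^ 2) * f x ^ 2 + ζ x * (2 * f x * f' x) :=
      indicator_of_mem hx _
    rw [h2]
    have hρx := hρ x
    have hs := (hsin0 x).ne'
    have hkey : f' x ^ 2 / ρ x - ω ^ 2 * (f x ^ 2 * ρ x) -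
        (-(ω ^ 2 * ρ x / Real.sin (θ x) ^ 2) * f x ^ 2 + ζ x * (2 * f x * f' x)) =
        (f' x - ζ x * ρ x * f x) ^ 2 / ρ x := by
      simp only [hζ]
      field_simp
      have := Real.sin_sq_add_cos_sq (θ x)
      ring_nf
      ring_nf at this
      linear_combination (-(ω ^ 2 * ρ x ^ 2 * f x ^ 2)) * this
    rw [hkey]
    positivity
  have hGi : ∫ x in P, G' x = 0 := by
    rw [← integral_indicator hPm]
    have : P.indicator G' = G' := by
      simp only [hG', indicator_indicator, inter_self]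
    rw [this, hint]
  have hG'P : IntegrableOn G' P := hG'i.integrableOn
  have hA : IntegrableOn (fun x => ω ^ 2 * (f x ^ 2 * ρ x)) P := hi2.const_mul _
  have hB : IntegrableOn (fun x => f' x ^ 2 / ρ x - ω ^ 2 * (f x ^ 2 * ρ x)) P := hi.sub hA
  rw [integral_sub hB hG'P, integral_sub hi hA, hGi, integral_const_mul] at hmain
  linarith

theorem poinc (P : Set ℝ) (hP : IsOpen P) (ρ : ℝ → ℝ) (hρc : Continuous ρ)
    (hρ : ∀ x, 0 < ρ x) (hρi : Integrable ρ) (f f' : ℝ → ℝ) (hf : ∀ x, HasDerivAt f (f' x) x)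
    (hf'c : Continuous f') (hf0 : ∀ x ∈ frontier P, f x = 0)
    (hbot : Tendsto f atBot (𝓝 0)) (htop : Tendsto f atTop (𝓝 0))
    (hi : IntegrableOn (fun x => f' x ^ 2 / ρ x) P)
    (hi2 : IntegrableOn (fun x => f x ^ 2 * ρ x) P) (hp : 0 < ∫ x in P, ρ x) :
    (Real.pi / ∫ x in P, ρ x) ^ 2 * ∫ x in P, f x ^ 2 * ρ x ≤ ∫ x in P, f' x ^ 2 / ρ x := by
  set p : ℝ := ∫ x in P, ρ x with hpdef
  have hlim : Tendsto (fun ω : ℝ => ω ^ 2 * ∫ x in P, f x ^ 2 * ρ x) (𝓝[<] (Real.pi / p))
      (𝓝 ((Real.pi / p) ^ 2 * ∫ x in P, f x ^ 2 * ρ x)) := by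
    have : Continuous fun ω : ℝ => ω ^ 2 * ∫ x in P, f x ^ 2 * ρ x := by fun_prop
    exact (this.tendsto _).mono_left nhdsWithin_le_nhds
  refine le_of_tendsto hlim ?_
  have hpos : 0 < Real.pi / p := div_pos Real.pi_pos hp
  filter_upwards [Ioo_mem_nhdsLT hpos] with ω hω
  refine poinc_aux P hP ρ hρc hρ hρi f f' hf hf'c hf0 hbot htop hi hi2 ω hω.1 ?_
  have := (lt_div_iff₀ hp).1 hω.2
  exact this

end Vale.Agent.P371S
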