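import Mathlib

namespace Vale.Agent.P371S

open MeasureTheory Set Filter Topology
open scoped RealInnerProductSpace

variable {E : Type*} [NormedAddCommGroup E] [InnerProductSpace ℝ E]

theorem abs_inner_le_of_orth {u v w : E} (hu : ‖u‖ = 1) (hw : ‖w‖ = 1) (h : ⟪v, u⟫ = 0) :
    |⟪v, w⟫| ≤ ‖v‖ * √(1 - ⟪u, w⟫ ^ 2) := by
  have h1 : ⟪v, w⟫ = ⟪v, w - ⟪u, w⟫ • u⟫ := by
    rw [inner_sub_right, inner_smul_right, h, mul_zero, sub_zero]
  have h2 : ‖w - ⟪u, w⟫ • u‖ ^ 2 = 1 - ⟪u, w⟫ ^ 2 := by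
    rw [norm_sub_sq_real, norm_smul, inner_smul_right, hu, hw, real_inner_comm u w,
      Real.norm_eq_abs, mul_one, sq_abs]
    ring
  rw [h1, ← h2, Real.sqrt_sq (norm_nonneg _)]
  exact abs_real_inner_le_norm _ _

theorem inner_deriv_zero {u u' : ℝ → E} (hu : ∀ x, HasDerivAt u (u' x) x)
    (hn : ∀ x, ‖u x‖ = 1) (x : ℝ) : ⟪u' x, u x⟫ = 0 := by
  have h1 : HasDerivAt (fun x => ⟪u x, u x⟫) (⟪u x, u' x⟫ + ⟪u' x, u x⟫) x := (hu x).inner ℝ (hu x)
  have h2 : (fun x => ⟪u x, u x⟫) = fun _ => (1 : ℝ) := by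
    funext y
    rw [real_inner_self_eq_norm_sq, hn y, one_pow]
  rw [h2] at h1
  have h3 := h1.unique (hasDerivAt_const x (1 : ℝ))
  rw [real_inner_comm] at h3
  linarith

theorem sphere_cos {u u' : ℝ → E} (hu : ∀ x, HasDerivAt u (u' x) x) (hc : Continuous u')
    (hn : ∀ x, ‖u x‖ = 1) {a b : ℝ} (hab : a ≤ b) (hθ : ∫ x in a..b, ‖u' x‖ < Real.pi) :
    Real.cos (∫ x in a..b, ‖u' x‖) ≤ ⟪u b, u a⟫ := by
  have hcn : Continuous fun x => ‖u' x‖ := hc.norm
  have key : ∀ δ : ℝ, 0 < δ → δ + (∫ x in a..b, ‖u' x‖) + δ * (b - a) < Real.pi →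
      Real.cos (δ + (∫ x in a..b, ‖u' x‖) + δ * (b - a)) ≤ ⟪u b, u a⟫ := by
    intro δ hδ hlt
    let θ : ℝ → ℝ := fun x => δ + (∫ y in a..x, ‖u' y‖) + δ * (x - a)
    have hθd : ∀ x, HasDerivAt θ (‖u' x‖ + δ) x := by
      intro x
      have h1 : HasDerivAt (fun x => ∫ y in a..x, ‖u' y‖) ‖u' x‖ x :=
        intervalIntegral.integral_hasDerivAt_right (hcn.intervalIntegrable _ _)
          (hcn.stronglyMeasurableAtFilter _ _) hcn.continuousAt
      have h2 : HasDerivAt (fun x => δ * (x - a)) δ x := by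
        simpa using ((hasDerivAt_id x).sub_const a).const_mul δ
      exact (h1.const_add δ).add h2
    have hθm : Monotone θ := monotone_of_deriv_nonneg (fun x => (hθd x).differentiableAt)
      (fun x => by rw [(hθd x).deriv]; positivity)
    have hθa : θ a = δ := by simp [θ]
    have := image_le_of_deriv_right_lt_deriv_boundary (a := a) (b := b)
      (f := fun x => -⟪u x, u a⟫) (f' := fun x => -⟪u' x, u a⟫)
      (B := fun x => -Real.cos (θ x)) (B' := fun x => Real.sin (θ x) * (‖u' x‖ + δ))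
      ?_ ?_ ?_ ?_ ?_ (right_mem_Icc.2 hab)
    · have h2 : -⟪u b, u a⟫ ≤ -Real.cos (θ b) := this
      have h3 : θ b = δ + (∫ x in a..b, ‖u' x‖) + δ * (b - a) := rfl
      rw [h3] at h2
      linarith
    · intro x _
      exact ((hu x).continuousAt.inner continuousAt_const).neg.continuousWithinAt
    · intro x _
      have h1 : HasDerivAt (fun x => ⟪u x, u a⟫) (⟪u x, (0 : E)⟫ + ⟪u' x, u a⟫) x :=
        (hu x).inner ℝ (hasDerivAt_const x (u a))
      rw [inner_zero_right, zero_add] at h1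
      exact h1.neg.hasDerivWithinAt
    · show -⟪u a, u a⟫ ≤ -Real.cos (θ a)
      rw [real_inner_self_eq_norm_sq, hn a, one_pow]
      linarith [Real.cos_le_one (θ a)]
    · intro x
      exact (((hθd x).cos).neg).congr_deriv (by ring)
    · intro x hx hfx
      have hx1 : θ x < Real.pi := lt_of_le_of_lt (hθm hx.2.le) hlt
      have hx0 : 0 < θ x := lt_of_lt_of_le hδ (by rw [← hθa]; exact hθm hx.1)
      have hsin := Real.sin_pos_of_pos_of_lt_pi hx0 hx1
      have hg : ⟪u x, u a⟫ = Real.cos (θ x) := by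
        have : -⟪u x, u a⟫ = -Real.cos (θ x) := hfx
        linarith
      have h1 := abs_inner_le_of_orth (hn x) (hn a) (inner_deriv_zero hu hn x)
      rw [hg, ← Real.sin_sq, Real.sqrt_sq hsin.le] at h1
      have h2 : -⟪u' x, u a⟫ ≤ ‖u' x‖ * Real.sin (θ x) := (neg_le_abs _).trans h1
      show -⟪u' x, u a⟫ < Real.sin (θ x) * (‖u' x‖ + δ)
      nlinarith [mul_pos hδ hsin]
  have hlim : Tendsto (fun δ : ℝ => Real.cos (δ + (∫ x in a..b, ‖u' x‖) + δ * (b - a))) (𝓝[>] 0)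
      (𝓝 (Real.cos (∫ x in a..b, ‖u' x‖))) := by
    have : Continuous fun δ : ℝ => Real.cos (δ + (∫ x in a..b, ‖u' x‖) + δ * (b - a)) := by
      fun_prop
    have h1 := this.tendsto 0
    simp only [zero_add, zero_mul, add_zero] at h1
    exact h1.mono_left nhdsWithin_le_nhds
  refine le_of_tendsto hlim ?_
  have h2 : ∀ᶠ δ in 𝓝[>] (0 : ℝ), δ + (∫ x in a..b, ‖u' x‖) + δ * (b - a) < Real.pi := by
    have : Continuous fun δ : ℝ => δ + (∫ x in a..b, ‖u' x‖) + δ * (b - a) := by fun_prop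
    have h1 := this.tendsto 0
    simp only [zero_add, zero_mul, add_zero] at h1
    exact (h1.mono_left nhdsWithin_le_nhds).eventually_lt_const hθ
  filter_upwards [h2, self_mem_nhdsWithin] with δ h3 h4
  exact key δ h4 h3

end Vale.Agent.P371S
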