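import Mathlib
import Vale.Agent.P371S.Sphere
import Vale.Agent.P371S.Poinc

namespace Vale.Agent.P371S

open MeasureTheory Set Filter Topology

noncomputable def chi (t : ℝ) : ℝ := (Ioo (-(Real.pi / 2)) (Real.pi / 2)).indicator (fun _ => 1) t

noncomputable def ker (s : ℝ) : ℝ := if |s| < Real.pi then 1 + Real.cos s else 0

theorem chi_meas : Measurable chi := measurable_const.indicator measurableSet_Ioo

theorem chi_mem {t : ℝ} (h : |t| < Real.pi / 2) : chi t = 1 := by
  have h1 : t ∈ Ioo (-(Real.pi / 2)) (Real.pi / 2) := abs_lt.1 h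
  unfold chi
  rw [indicator_of_mem h1]

theorem chi_not {t : ℝ} (h : ¬ |t| < Real.pi / 2) : chi t = 0 := by
  have h1 : t ∉ Ioo (-(Real.pi / 2)) (Real.pi / 2) := fun h1 => h (abs_lt.2 h1)
  unfold chi
  rw [indicator_of_notMem h1]

theorem chi_neg (t : ℝ) : chi (-t) = chi t := by
  by_cases h : |t| < Real.pi / 2
  · rw [chi_mem h, chi_mem (by rwa [abs_neg])]
  · rw [chi_not h, chi_not (by rwa [abs_neg])]

theorem chi_nonneg (t : ℝ) : 0 ≤ chi t := by
  by_cases h : |t| < Real.pi / 2
  · rw [chi_mem h]; exact zero_le_one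
  · rw [chi_not h]

theorem chi_le_one (t : ℝ) : chi t ≤ 1 := by
  by_cases h : |t| < Real.pi / 2
  · rw [chi_mem h]
  · rw [chi_not h]; exact zero_le_one

theorem chi_integrable : Integrable chi := by
  unfold chi
  rw [integrable_indicator_iff measurableSet_Ioo]
  exact integrableOn_const (by simp)

theorem integral_chi_mul (g : ℝ → ℝ) :
    ∫ t, chi t * g t = ∫ t in (-(Real.pi / 2))..(Real.pi / 2), g t := by
  have h1 : (fun t => chi t * g t) = (Ioo (-(Real.pi / 2)) (Real.pi / 2)).indicator g := by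
    funext t
    by_cases h : t ∈ Ioo (-(Real.pi / 2)) (Real.pi / 2)
    · simp [chi, h]
    · simp [chi, h]
  rw [h1, integral_indicator measurableSet_Ioo, ← integral_Ioc_eq_integral_Ioo,
    intervalIntegral.integral_of_le (by linarith [Real.pi_pos])]

theorem kint_nonneg {s : ℝ} (hs : 0 ≤ s) :
    ∫ t, chi t * (Real.cos t * chi (s - t)) = ker s := by
  have h1 : (fun t => chi t * (Real.cos t * chi (s - t))) =
      (Ioo (s - Real.pi / 2) (Real.pi / 2)).indicator Real.cos := by
    funext t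
    by_cases h : t ∈ Ioo (s - Real.pi / 2) (Real.pi / 2)
    · rw [indicator_of_mem h]
      have h1 := h.1
      have h2 := h.2
      rw [chi_mem (abs_lt.2 ⟨by linarith, by linarith⟩),
        chi_mem (abs_lt.2 ⟨by linarith, by linarith⟩)]
      ring
    · rw [indicator_of_notMem h]
      by_cases h2 : |t| < Real.pi / 2
      · have h3 : ¬ |s - t| < Real.pi / 2 := by
          intro h4
          exact h ⟨by linarith [(abs_lt.1 h4).2], (abs_lt.1 h2).2⟩
        rw [chi_not h3]
        ring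
      · rw [chi_not h2]
        ring
  rw [h1, integral_indicator measurableSet_Ioo, ← integral_Ioc_eq_integral_Ioo]
  unfold ker
  rw [abs_of_nonneg hs]
  split_ifs with h
  · rw [← intervalIntegral.integral_of_le (by linarith), integral_cos, Real.sin_pi_div_two,
      Real.sin_sub_pi_div_two]
    ring
  · rw [Ioc_eq_empty (by intro h2; linarith), setIntegral_empty]

theorem ker_neg (s : ℝ) : ker (-s) = ker s := by
  unfold ker
  rw [abs_neg, Real.cos_neg]

theorem kint (s : ℝ) : ∫ t, chi t * (Real.cos t * chi (s - t)) = ker s := by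
  rcases le_total 0 s with h | h
  · exact kint_nonneg h
  · rw [← ker_neg, ← kint_nonneg (by linarith : 0 ≤ -s)]
    rw [← integral_neg_eq_self (fun t => chi t * (Real.cos t * chi (-s - t)))]
    refine integral_congr_ae (Eventually.of_forall fun t => ?_)
    show chi t * (Real.cos t * chi (s - t)) = chi (-t) * (Real.cos (-t) * chi (-s - -t))
    rw [chi_neg, Real.cos_neg, ← chi_neg (-s - -t)]
    congr 3
    ring

theorem shear_integrable {g A : ℝ → ℝ} {φ : ℝ → ℝ} (hg : Integrable g) (hgm : Measurable g)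
    (hA : Integrable A) (hAm : Measurable A) (hφ : Measurable φ) :
    Integrable (fun z : ℝ × ℝ => g (z.1 - φ z.2) * A z.2) (volume.prod volume) := by
  have hm : Measurable fun z : ℝ × ℝ => g (z.1 - φ z.2) * A z.2 := by
    fun_prop
  rw [integrable_prod_iff' hm.aestronglyMeasurable]
  constructor
  · exact Eventually.of_forall fun x => (hg.comp_sub_right (φ x)).mul_const (A x)
  · have h1 : (fun y => ∫ x, ‖g (x - φ y) * A y‖) = fun y => (∫ t, ‖g t‖) * ‖A y‖ := by
      funext y
      have h2 : (fun x => ‖g (x - φ y) * A y‖) = fun x => ‖g (x - φ y)‖ * ‖A y‖ := by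
        funext x
        exact norm_mul _ _
      rw [h2, integral_mul_const, integral_sub_right_eq_self (fun t => ‖g t‖) (φ y)]
    simp only [h1]
    exact hA.norm.const_mul _

theorem amgm {κ p β c e : ℝ} (hκ : 0 < κ) (hp : 0 < p) (hβ : 0 ≤ β) (hc : 0 ≤ c)
    (he : 0 ≤ e) (hce : c * e ^ 3 ≤ 1) :
    (3 * β ^ 2 * (c ^ 2 * e ^ 2) - 2 * β ^ 3 / κ * (c * p)) / κ ^ 2 ≤ c ^ 2 / p ^ 2 := by
  have h1 : 0 ≤ c ^ 2 * ((1 - β * e / κ * p) ^ 2 * (1 + 2 * (β * e / κ * p))) := by positivity
  have h2 : 0 ≤ 2 * β ^ 3 / κ ^ 3 * (c * p * (1 - c * e ^ 3)) * p ^ 2 := by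
    have : 0 ≤ 1 - c * e ^ 3 := by linarith
    positivity
  rw [le_div_iff₀ (by positivity)]
  have h3 : c ^ 2 - (3 * β ^ 2 * (c ^ 2 * e ^ 2) - 2 * β ^ 3 / κ * (c * p)) / κ ^ 2 * p ^ 2 =
      c ^ 2 * ((1 - β * e / κ * p) ^ 2 * (1 + 2 * (β * e / κ * p))) +
      2 * β ^ 3 / κ ^ 3 * (c * p * (1 - c * e ^ 3)) * p ^ 2 := by
    field_simp
    ring
  linarith

theorem int_cos_sq : ∫ t in (-(Real.pi / 2))..(Real.pi / 2), Real.cos t ^ 2 = Real.pi / 2 := by
  rw [integral_cos_sq]
  simp

theorem int_sin_sq : ∫ t in (-(Real.pi / 2))..(Real.pi / 2), Real.sin t ^ 2 = Real.pi / 2 := by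
  rw [integral_sin_sq]
  simp

theorem int_sin_cos : ∫ t in (-(Real.pi / 2))..(Real.pi / 2), Real.sin t * Real.cos t = 0 := by
  rw [integral_sin_mul_cos₁]
  simp

end Vale.Agent.P371S
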