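import Mathlib
import Vale.Agent.P371S.Core

namespace Vale.Agent.P371S

open MeasureTheory Set Filter Topology

section

variable {ρ ρ' : ℝ → ℝ}

theorem deriv_integrable
    (hρ'c : Continuous ρ') (hρ : ∀ x, 0 < ρ x) (hρi : Integrable ρ)
    (hD : Integrable fun x => ρ' x ^ 2 / ρ x) : Integrable ρ' := by
  refine (hD.add hρi).mono' hρ'c.aestronglyMeasurable (Eventually.of_forall fun x => ?_)
  have h := hρ x
  show ‖ρ' x‖ ≤ ρ' x ^ 2 / ρ x + ρ x
  rw [Real.norm_eq_abs, ← sub_nonneg]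
  have h1 : ρ' x ^ 2 / ρ x + ρ x - |ρ' x| =
      ((|ρ' x| - ρ x / 2) ^ 2 + 3 / 4 * ρ x ^ 2) / ρ x := by
    rw [← sq_abs (ρ' x)]
    field_simp
    ring
  rw [h1]
  positivity

theorem lim_top (hρd : ∀ x, HasDerivAt ρ (ρ' x) x) (hρi : Integrable ρ) (hρ'i : Integrable ρ') :
    Tendsto ρ atTop (𝓝 0) :=
  tendsto_zero_of_hasDerivAt_of_integrableOn_Ioi (a := 0) (fun x _ => hρd x)
    hρ'i.integrableOn hρi.integrableOn

theorem lim_bot (hρd : ∀ x, HasDerivAt ρ (ρ' x) x) (hρi : Integrable ρ) (hρ'i : Integrable ρ') :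
    Tendsto ρ atBot (𝓝 0) :=
  tendsto_zero_of_hasDerivAt_of_integrableOn_Iic (a := 0) (fun x _ => hρd x)
    hρ'i.integrableOn hρi.integrableOn

theorem rho_le (hρd : ∀ x, HasDerivAt ρ (ρ' x) x) (hρi : Integrable ρ) (hρ'i : Integrable ρ')
    (x : ℝ) : ρ x ≤ ∫ y, ‖ρ' y‖ := by
  have h1 := integral_Iic_of_hasDerivAt_of_tendsto' (a := x) (f := ρ) (f' := ρ')
    (fun y _ => hρd y) hρ'i.integrableOn (lim_bot hρd hρi hρ'i)
  have h2 : ρ x = ∫ y in Iic x, ρ' y := by rw [h1]; ring
  rw [h2]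
  refine (le_abs_self _).trans ?_
  rw [← Real.norm_eq_abs]
  refine (norm_integral_le_integral_norm _).trans ?_
  exact setIntegral_le_integral hρ'i.norm (Eventually.of_forall fun y => norm_nonneg _)

end

theorem p_meas {ρ φ : ℝ → ℝ} (hρ : Measurable ρ) (hφ : Measurable φ) :
    Measurable fun α => ∫ x, ρ x * chi (α - φ x) := by
  have h1 : StronglyMeasurable fun z : ℝ × ℝ => ρ z.2 * chi (z.1 - φ z.2) := by
    apply Measurable.stronglyMeasurable
    have := chi_meas
    fun_prop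
  exact (h1.integral_prod_right' (ν := volume)).measurable

theorem slice_ineq (ρ ρ' φ s : ℝ → ℝ) (hρd : ∀ x, HasDerivAt ρ (ρ' x) x)
    (hφd : ∀ x, HasDerivAt φ (s x) x)
    (hρ'c : Continuous ρ') (hsc : Continuous s) (hρ : ∀ x, 0 < ρ x) (hρi : Integrable ρ)
    (hD : Integrable fun x => ρ' x ^ 2 / ρ x) (hD2 : Integrable fun x => ρ x * s x ^ 2)
    (κ : ℝ) (hκ : 0 < κ)
    (β : ℝ) (hβ : 0 ≤ β) (e : ℝ → ℝ) (he : ∀ c, 0 ≤ c → c ≤ 1 → 0 ≤ e c)
    (hce : ∀ c, 0 ≤ c → c ≤ 1 → c * e c ^ 3 ≤ 1) (M : ℝ) (hM : ∀ x, ρ x ≤ M) (α : ℝ) :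
    Real.pi ^ 2 / κ ^ 2 * ∫ x, chi (α - φ x) * (ρ x ^ 3 *
      (3 * β ^ 2 * (Real.cos (α - φ x) ^ 2 * e (Real.cos (α - φ x)) ^ 2) -
        2 * β ^ 3 / κ * (Real.cos (α - φ x) * ∫ y, ρ y * chi (α - φ y)))) ≤
    ∫ x, chi (α - φ x) * ((ρ' x * Real.cos (α - φ x) + ρ x * s x * Real.sin (α - φ x)) ^ 2 / ρ x) := by
  have hρc : Continuous ρ := continuous_iff_continuousAt.2 fun x => (hρd x).continuousAt
  have hφc : Continuous φ := continuous_iff_continuousAt.2 fun x => (hφd x).continuousAt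
  set p : ℝ := ∫ y, ρ y * chi (α - φ y) with hp
  set P : Set ℝ := {x | |α - φ x| < Real.pi / 2} with hP
  have hPo : IsOpen P := isOpen_lt (continuous_const.sub hφc).abs continuous_const
  have hPm := hPo.measurableSet
  have hchi : ∀ g : ℝ → ℝ, (fun x => chi (α - φ x) * g x) = P.indicator g := by
    intro g
    funext x
    by_cases h : x ∈ P
    · rw [indicator_of_mem h, chi_mem h, one_mul]
    · rw [indicator_of_notMem h, chi_not h, zero_mul]
  have hpP : p = ∫ x in P, ρ x := by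
    rw [hp, ← integral_indicator hPm, ← hchi]
    simp only [mul_comm]
  have hp0 : 0 ≤ p := integral_nonneg fun y => mul_nonneg (hρ y).le (chi_nonneg _)
  have hcos : ∀ x ∈ P, 0 < Real.cos (α - φ x) := fun x hx => Real.cos_pos_of_mem_Ioo (abs_lt.1 hx)
  have hρ'i := deriv_integrable hρ'c hρ hρi hD
  have hM0 : 0 ≤ M := (hρ 0).le.trans (hM 0)
  set f : ℝ → ℝ := fun x => ρ x * Real.cos (α - φ x) with hf
  set f' : ℝ → ℝ := fun x => ρ' x * Real.cos (α - φ x) + ρ x * s x * Real.sin (α - φ x) with hf'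
  have hfd : ∀ x, HasDerivAt f (f' x) x := by
    intro x
    have h1 : HasDerivAt (fun x => α - φ x) (-(s x)) x := (hφd x).const_sub α
    refine ((hρd x).mul h1.cos).congr_deriv ?_
    simp only [hf']
    ring
  have hcc : Continuous fun x => Real.cos (α - φ x) :=
    Real.continuous_cos.comp (continuous_const.sub hφc)
  have hss : Continuous fun x => Real.sin (α - φ x) :=
    Real.continuous_sin.comp (continuous_const.sub hφc)
  have hf'c : Continuous f' := (hρ'c.mul hcc).add ((hρc.mul hsc).mul hss)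
  have hf0 : ∀ x ∈ frontier P, f x = 0 := by
    intro x hx
    have h1 : x ∉ P := by
      rw [hPo.frontier_eq] at hx
      exact hx.2
    have h2 : |α - φ x| ≤ Real.pi / 2 := by
      have h3 : closure P ⊆ {x | |α - φ x| ≤ Real.pi / 2} :=
        closure_minimal (fun y hy => (show |α - φ y| < Real.pi / 2 from hy).le)
          (isClosed_le (continuous_const.sub hφc).abs continuous_const)
      exact h3 (frontier_subset_closure hx)
    have h4 : |α - φ x| = Real.pi / 2 := le_antisymm h2 (not_lt.1 h1)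
    simp only [hf]
    rw [← Real.cos_abs, h4, Real.cos_pi_div_two, mul_zero]
  have hfle : ∀ x, |f x| ≤ ρ x := by
    intro x
    simp only [hf]
    rw [abs_mul, abs_of_pos (hρ x)]
    exact mul_le_of_le_one_right (hρ x).le (Real.abs_cos_le_one _)
  have hbot : Tendsto f atBot (𝓝 0) := squeeze_zero_norm hfle (lim_bot hρd hρi hρ'i)
  have htop : Tendsto f atTop (𝓝 0) := squeeze_zero_norm hfle (lim_top hρd hρi hρ'i)
  have hi : Integrable fun x => f' x ^ 2 / ρ x := by
    refine ((hD.add hD2).const_mul 2).mono'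
      ((hf'c.pow 2).div hρc fun x => (hρ x).ne').aestronglyMeasurable
      (Eventually.of_forall fun x => ?_)
    have hx := hρ x
    rw [Real.norm_eq_abs, abs_of_nonneg (by positivity)]
    show f' x ^ 2 / ρ x ≤ 2 * (ρ' x ^ 2 / ρ x + ρ x * s x ^ 2)
    have h1 : 2 * (ρ' x ^ 2 / ρ x + ρ x * s x ^ 2) = 2 * (ρ' x ^ 2 + (ρ x * s x) ^ 2) / ρ x := by
      field_simp
    rw [h1]
    refine div_le_div_of_nonneg_right ?_ hx.le
    have h2 := Real.sin_sq_add_cos_sq (α - φ x)
    have h3 : f' x ^ 2 + (ρ' x * Real.sin (α - φ x) - ρ x * s x * Real.cos (α - φ x)) ^ 2 =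
        ρ' x ^ 2 + (ρ x * s x) ^ 2 := by
      simp only [hf']
      linear_combination (ρ' x ^ 2 + (ρ x * s x) ^ 2) * h2
    nlinarith [sq_nonneg (ρ' x * Real.sin (α - φ x) - ρ x * s x * Real.cos (α - φ x)),
      sq_nonneg (ρ' x), sq_nonneg (ρ x * s x)]
  have hi2 : Integrable fun x => f x ^ 2 * ρ x := by
    have hfc : Continuous f := hρc.mul hcc
    refine (hρi.const_mul (M ^ 2)).mono' ((hfc.pow 2).mul hρc).aestronglyMeasurable
      (Eventually.of_forall fun x => ?_)
    have hx := hρ x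
    rw [Real.norm_eq_abs, abs_of_nonneg (by positivity)]
    refine mul_le_mul_of_nonneg_right ?_ hx.le
    rw [← sq_abs]
    exact pow_le_pow_left₀ (abs_nonneg _) ((hfle x).trans (hM x)) 2
  have hRHS : ∫ x, chi (α - φ x) * (f' x ^ 2 / ρ x) = ∫ x in P, f' x ^ 2 / ρ x := by
    rw [hchi, integral_indicator hPm]
  rw [hRHS, hchi, integral_indicator hPm]
  rcases hp0.eq_or_lt with hp1 | hp1
  · have hPe : P = ∅ := by
      by_contra hne
      have hne' : P.Nonempty := nonempty_iff_ne_empty.2 hne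
      have hpos : 0 < volume P := hPo.measure_pos volume hne'
      have h1 : 0 < ∫ x in P, ρ x := by
        rw [setIntegral_pos_iff_support_of_nonneg_ae (Eventually.of_forall fun x => (hρ x).le)
          hρi.integrableOn]
        have : Function.support ρ = univ := by
          ext x
          simp [(hρ x).ne']
        rwa [this, univ_inter]
      rw [← hpP, ← hp1] at h1
      exact lt_irrefl _ h1
    rw [hPe]
    simp
  · have hpoinc := poinc P hPo ρ hρc hρ hρi f f' hfd hf'c hf0 hbot htop hi.integrableOn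
      hi2.integrableOn (by rw [← hpP]; exact hp1)
    refine le_trans ?_ hpoinc
    rw [← hpP, ← integral_const_mul, ← integral_const_mul]
    have hnn : ∀ x, 0 ≤ (Real.pi / p) ^ 2 * (f x ^ 2 * ρ x) := fun x => by
      have := hρ x
      positivity
    by_cases hI : IntegrableOn (fun x => Real.pi ^ 2 / κ ^ 2 * (ρ x ^ 3 *
      (3 * β ^ 2 * (Real.cos (α - φ x) ^ 2 * e (Real.cos (α - φ x)) ^ 2) -
        2 * β ^ 3 / κ * (Real.cos (α - φ x) * p)))) P
    · refine setIntegral_mono_on hI (hi2.integrableOn.const_mul _) hPm fun x hx => ?_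
      have hx0 := hρ x
      have hc := hcos x hx
      have h1 := amgm hκ hp1 hβ hc.le (he _ hc.le (Real.cos_le_one _))
        (hce _ hc.le (Real.cos_le_one _))
      have h2 := mul_le_mul_of_nonneg_left h1 (by positivity : 0 ≤ Real.pi ^ 2 * ρ x ^ 3)
      simp only [hf]
      calc _ = Real.pi ^ 2 * ρ x ^ 3 * ((3 * β ^ 2 * (Real.cos (α - φ x) ^ 2 *
            e (Real.cos (α - φ x)) ^ 2) - 2 * β ^ 3 / κ * (Real.cos (α - φ x) * p)) / κ ^ 2) := by
            ring
        _ ≤ _ := h2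
        _ = _ := by field_simp
    · rw [integral_undef hI]
      exact integral_nonneg fun x => hnn x

end Vale.Agent.P371S
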