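import Mathlib
import Vale.Agent.P371S.Core2

namespace Vale.Agent.P371S

open MeasureTheory Set Filter Topology

theorem lhs_eval (ρ ρ' φ s : ℝ → ℝ) (hρc : Continuous ρ) (hφc : Continuous φ)
    (hρ'c : Continuous ρ') (hsc : Continuous s) (hρ : ∀ x, 0 < ρ x)
    (hD : Integrable fun x => ρ' x ^ 2 / ρ x) (hD2 : Integrable fun x => ρ x * s x ^ 2) :
    Integrable (fun z : ℝ × ℝ => chi (z.1 - φ z.2) * ((ρ' z.2 * Real.cos (z.1 - φ z.2) +
      ρ z.2 * s z.2 * Real.sin (z.1 - φ z.2)) ^ 2 / ρ z.2)) (volume.prod volume) ∧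
    ∫ α, ∫ x, chi (α - φ x) * ((ρ' x * Real.cos (α - φ x) +
      ρ x * s x * Real.sin (α - φ x)) ^ 2 / ρ x) =
    Real.pi / 2 * ∫ x, (ρ' x ^ 2 / ρ x + ρ x * s x ^ 2) := by
  have hm1 := chi_meas
  have hm2 := hρc.measurable
  have hm3 := hφc.measurable
  have hm4 := hρ'c.measurable
  have hm5 := hsc.measurable
  have hAm : Measurable fun x => 2 * (ρ' x ^ 2 / ρ x + ρ x * s x ^ 2) := by fun_prop
  have hint : Integrable (fun z : ℝ × ℝ => chi (z.1 - φ z.2) * ((ρ' z.2 * Real.cos (z.1 - φ z.2) +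
      ρ z.2 * s z.2 * Real.sin (z.1 - φ z.2)) ^ 2 / ρ z.2)) (volume.prod volume) := by
    refine (shear_integrable chi_integrable chi_meas ((hD.add hD2).const_mul 2) hAm hm3).mono'
      (by apply Measurable.aestronglyMeasurable; fun_prop) (Eventually.of_forall fun z => ?_)
    have hx := hρ z.2
    rw [Real.norm_eq_abs, abs_mul, abs_of_nonneg (chi_nonneg _),
      abs_of_nonneg (by positivity : 0 ≤ (ρ' z.2 * Real.cos (z.1 - φ z.2) +
      ρ z.2 * s z.2 * Real.sin (z.1 - φ z.2)) ^ 2 / ρ z.2)]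
    refine mul_le_mul_of_nonneg_left ?_ (chi_nonneg _)
    have h1 : 2 * (ρ' z.2 ^ 2 / ρ z.2 + ρ z.2 * s z.2 ^ 2) =
        2 * (ρ' z.2 ^ 2 + (ρ z.2 * s z.2) ^ 2) / ρ z.2 := by
      field_simp
    show _ ≤ 2 * (ρ' z.2 ^ 2 / ρ z.2 + ρ z.2 * s z.2 ^ 2)
    rw [h1]
    refine div_le_div_of_nonneg_right ?_ hx.le
    have h2 := Real.sin_sq_add_cos_sq (z.1 - φ z.2)
    have h3 : (ρ' z.2 * Real.cos (z.1 - φ z.2) + ρ z.2 * s z.2 * Real.sin (z.1 - φ z.2)) ^ 2 +
        (ρ' z.2 * Real.sin (z.1 - φ z.2) - ρ z.2 * s z.2 * Real.cos (z.1 - φ z.2)) ^ 2 =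
        ρ' z.2 ^ 2 + (ρ z.2 * s z.2) ^ 2 := by
      linear_combination (ρ' z.2 ^ 2 + (ρ z.2 * s z.2) ^ 2) * h2
    nlinarith [sq_nonneg (ρ' z.2 * Real.sin (z.1 - φ z.2) - ρ z.2 * s z.2 * Real.cos (z.1 - φ z.2)),
      sq_nonneg (ρ' z.2), sq_nonneg (ρ z.2 * s z.2)]
  refine ⟨hint, ?_⟩
  rw [integral_integral_swap hint, ← integral_const_mul]
  refine integral_congr_ae (Eventually.of_forall fun x => ?_)
  show ∫ α, chi (α - φ x) * ((ρ' x * Real.cos (α - φ x) +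
      ρ x * s x * Real.sin (α - φ x)) ^ 2 / ρ x) = _
  rw [integral_sub_right_eq_self (fun t => chi t * ((ρ' x * Real.cos t +
      ρ x * s x * Real.sin t) ^ 2 / ρ x)) (φ x), integral_chi_mul]
  have hx := hρ x
  have h1 : ∀ t, (ρ' x * Real.cos t + ρ x * s x * Real.sin t) ^ 2 / ρ x =
      ρ' x ^ 2 / ρ x * Real.cos t ^ 2 + 2 * ρ' x * s x * (Real.sin t * Real.cos t) +
      ρ x * s x ^ 2 * Real.sin t ^ 2 := by
    intro t
    field_simp
    ring
  simp only [h1]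
  rw [intervalIntegral.integral_add, intervalIntegral.integral_add,
    intervalIntegral.integral_const_mul, intervalIntegral.integral_const_mul,
    intervalIntegral.integral_const_mul, int_cos_sq, int_sin_sq, int_sin_cos]
  · ring
  all_goals exact Continuous.intervalIntegrable (by fun_prop) _ _

theorem constraint_eval (ρ φ : ℝ → ℝ) (hρm : Measurable ρ) (hφm : Measurable φ)
    (hρi : Integrable ρ) (x : ℝ) :
    ∫ t, chi t * (Real.cos t * ∫ y, ρ y * chi (t + φ x - φ y)) =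
      ∫ y, ρ y * ker (φ y - φ x) := by
  have hm1 := chi_meas
  have h1 : ∀ t, chi t * (Real.cos t * ∫ y, ρ y * chi (t + φ x - φ y)) =
      ∫ y, chi t * (Real.cos t * (ρ y * chi (t + φ x - φ y))) := by
    intro t
    rw [← integral_const_mul, ← integral_const_mul]
  simp only [h1]
  have hint : Integrable (fun z : ℝ × ℝ => chi z.1 * (Real.cos z.1 *
      (ρ z.2 * chi (z.1 + φ x - φ z.2)))) (volume.prod volume) := by
    refine (chi_integrable.mul_prod hρi.norm).mono'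
      (by apply Measurable.aestronglyMeasurable; fun_prop) (Eventually.of_forall fun z => ?_)
    rw [norm_mul, norm_mul, norm_mul, Real.norm_eq_abs (chi z.1), abs_of_nonneg (chi_nonneg _)]
    refine mul_le_mul_of_nonneg_left ?_ (chi_nonneg _)
    have h2 : ‖Real.cos z.1‖ ≤ 1 := Real.abs_cos_le_one _
    have h3 : ‖chi (z.1 + φ x - φ z.2)‖ ≤ 1 := by
      rw [Real.norm_eq_abs, abs_of_nonneg (chi_nonneg _)]
      exact chi_le_one _
    calc _ ≤ 1 * (‖ρ z.2‖ * 1) := by gcongr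
      _ = _ := by ring
  rw [integral_integral_swap hint]
  refine integral_congr_ae (Eventually.of_forall fun y => ?_)
  show ∫ t, chi t * (Real.cos t * (ρ y * chi (t + φ x - φ y))) = ρ y * ker (φ y - φ x)
  rw [← kint, ← integral_const_mul]
  refine integral_congr_ae (Eventually.of_forall fun t => ?_)
  show chi t * (Real.cos t * (ρ y * chi (t + φ x - φ y))) =
    ρ y * (chi t * (Real.cos t * chi (φ y - φ x - t)))
  rw [← chi_neg (φ y - φ x - t)]
  have : -(φ y - φ x - t) = t + φ x - φ y := by ring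
  rw [this]
  ring

theorem scalar_core (ρ ρ' φ s : ℝ → ℝ) (hρd : ∀ x, HasDerivAt ρ (ρ' x) x)
    (hφd : ∀ x, HasDerivAt φ (s x) x)
    (hρ'c : Continuous ρ') (hsc : Continuous s) (hρ : ∀ x, 0 < ρ x) (hρi : Integrable ρ)
    (hD : Integrable fun x => ρ' x ^ 2 / ρ x) (hD2 : Integrable fun x => ρ x * s x ^ 2)
    (κ : ℝ) (hκ : 0 < κ) (hk : ∀ x, ∫ y, ρ y * ker (φ y - φ x) ≤ 2 * κ)
    (β : ℝ) (hβ : 0 ≤ β) (e : ℝ → ℝ) (hec : Continuous e) (he : ∀ c, 0 ≤ c → c ≤ 1 → 0 ≤ e c)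
    (hce : ∀ c, 0 ≤ c → c ≤ 1 → c * e c ^ 3 ≤ 1) :
    Real.pi ^ 2 / κ ^ 2 * (3 * β ^ 2 * (∫ t in (-(Real.pi / 2))..(Real.pi / 2),
      Real.cos t ^ 2 * e (Real.cos t) ^ 2) - 4 * β ^ 3) * ∫ x, ρ x ^ 3 ≤
    Real.pi / 2 * ∫ x, (ρ' x ^ 2 / ρ x + ρ x * s x ^ 2) := by
  have hρc : Continuous ρ := continuous_iff_continuousAt.2 fun x => (hρd x).continuousAt
  have hφc : Continuous φ := continuous_iff_continuousAt.2 fun x => (hφd x).continuousAt
  have hρ'i := deriv_integrable hρ'c hρ hρi hD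
  obtain ⟨M, hM⟩ : ∃ M, ∀ x, ρ x ≤ M := ⟨_, rho_le hρd hρi hρ'i⟩
  have hM0 : 0 ≤ M := (hρ 0).le.trans (hM 0)
  have hm1 := chi_meas
  have hm2 := hρc.measurable
  have hm3 := hφc.measurable
  have hm4 := hρ'c.measurable
  have hm5 := hsc.measurable
  have hm6 := hec.measurable
  have hρ3 : Integrable fun x => ρ x ^ 3 := by
    refine (hρi.const_mul (M ^ 2)).mono' (hρc.pow 3).aestronglyMeasurable
      (Eventually.of_forall fun x => ?_)
    have hx := hρ x
    rw [Real.norm_eq_abs, abs_of_nonneg (by positivity)]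
    have : ρ x ^ 2 ≤ M ^ 2 := pow_le_pow_left₀ hx.le (hM x) 2
    calc ρ x ^ 3 = ρ x ^ 2 * ρ x := by ring
      _ ≤ M ^ 2 * ρ x := mul_le_mul_of_nonneg_right this hx.le
  set p : ℝ → ℝ := fun α => ∫ y, ρ y * chi (α - φ y) with hp
  have hpm : Measurable p := p_meas hm2 hm3
  have hp0 : ∀ α, 0 ≤ p α := fun α => integral_nonneg fun y => mul_nonneg (hρ y).le (chi_nonneg _)
  have hp1 : ∀ α, p α ≤ ∫ y, ρ y := by
    intro α
    refine integral_mono_of_nonneg (Eventually.of_forall fun y =>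
      mul_nonneg (hρ y).le (chi_nonneg _)) hρi (Eventually.of_forall fun y => ?_)
    exact mul_le_of_le_one_right (hρ y).le (chi_le_one _)
  set R : ℝ := ∫ y, ρ y with hR
  obtain ⟨hFi, hFe⟩ := lhs_eval ρ ρ' φ s hρc hφc hρ'c hsc hρ hD hD2
  obtain ⟨B, hB⟩ : ∃ B, ∀ c ∈ Icc (-1 : ℝ) 1, |3 * β ^ 2 * (c ^ 2 * e c ^ 2)| ≤ B := by
    have hcont : ContinuousOn (fun c : ℝ => 3 * β ^ 2 * (c ^ 2 * e c ^ 2)) (Icc (-1 : ℝ) 1) := by
      fun_prop
    obtain ⟨B, hB⟩ := isCompact_Icc.exists_bound_of_continuousOn hcont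
    exact ⟨B, hB⟩
  have hHi : Integrable (fun z : ℝ × ℝ => chi (z.1 - φ z.2) * (ρ z.2 ^ 3 *
      (3 * β ^ 2 * (Real.cos (z.1 - φ z.2) ^ 2 * e (Real.cos (z.1 - φ z.2)) ^ 2) -
        2 * β ^ 3 / κ * (Real.cos (z.1 - φ z.2) * p z.1)))) (volume.prod volume) := by
    refine (shear_integrable chi_integrable chi_meas
      (hρ3.const_mul (B + 2 * β ^ 3 / κ * R)) (by fun_prop) hm3).mono'
      (by apply Measurable.aestronglyMeasurable; fun_prop) (Eventually.of_forall fun z => ?_)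
    have hx := hρ z.2
    rw [norm_mul, norm_mul, Real.norm_eq_abs (chi _), abs_of_nonneg (chi_nonneg _),
      Real.norm_eq_abs (ρ z.2 ^ 3), abs_of_nonneg (by positivity)]
    refine mul_le_mul_of_nonneg_left ?_ (chi_nonneg _)
    rw [mul_comm (ρ z.2 ^ 3)]
    refine mul_le_mul_of_nonneg_right ?_ (by positivity)
    refine (norm_sub_le _ _).trans ?_
    have h1 := hB (Real.cos (z.1 - φ z.2)) ⟨Real.neg_one_le_cos _, Real.cos_le_one _⟩
    have h2 : ‖2 * β ^ 3 / κ * (Real.cos (z.1 - φ z.2) * p z.1)‖ ≤ 2 * β ^ 3 / κ * R := by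
      rw [norm_mul, norm_mul, Real.norm_eq_abs (2 * β ^ 3 / κ), abs_of_nonneg (by positivity)]
      refine mul_le_mul_of_nonneg_left ?_ (by positivity)
      have h3 : ‖Real.cos (z.1 - φ z.2)‖ ≤ 1 := Real.abs_cos_le_one _
      have h4 : ‖p z.1‖ ≤ R := by
        rw [Real.norm_eq_abs, abs_of_nonneg (hp0 _)]
        exact hp1 _
      calc _ ≤ 1 * R := by gcongr
        _ = R := one_mul _
    rw [Real.norm_eq_abs (3 * β ^ 2 * _)]
    linarith
  have hmono : ∫ α, (Real.pi ^ 2 / κ ^ 2 * ∫ x, chi (α - φ x) * (ρ x ^ 3 *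
      (3 * β ^ 2 * (Real.cos (α - φ x) ^ 2 * e (Real.cos (α - φ x)) ^ 2) -
        2 * β ^ 3 / κ * (Real.cos (α - φ x) * p α)))) ≤
      ∫ α, ∫ x, chi (α - φ x) * ((ρ' x * Real.cos (α - φ x) +
        ρ x * s x * Real.sin (α - φ x)) ^ 2 / ρ x) := by
    refine integral_mono ?_ ?_ fun α => ?_
    · exact (hHi.integral_prod_left).const_mul _
    · exact hFi.integral_prod_left
    · exact slice_ineq ρ ρ' φ s hρd hφd hρ'c hsc hρ hρi hD hD2 κ hκ β hβ e he hce M hM α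
  rw [hFe, integral_const_mul, integral_integral_swap hHi] at hmono
  refine le_trans ?_ hmono
  rw [mul_assoc]
  refine mul_le_mul_of_nonneg_left ?_ (by positivity)
  rw [← integral_const_mul]
  have hinner : ∀ x, ∫ α, chi (α - φ x) * (ρ x ^ 3 *
      (3 * β ^ 2 * (Real.cos (α - φ x) ^ 2 * e (Real.cos (α - φ x)) ^ 2) -
        2 * β ^ 3 / κ * (Real.cos (α - φ x) * p α))) =
      ρ x ^ 3 * (3 * β ^ 2 * (∫ t in (-(Real.pi / 2))..(Real.pi / 2),
        Real.cos t ^ 2 * e (Real.cos t) ^ 2) -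
        2 * β ^ 3 / κ * ∫ y, ρ y * ker (φ y - φ x)) := by
    intro x
    have h1 := integral_sub_right_eq_self (μ := volume) (fun t => chi t * (ρ x ^ 3 *
      (3 * β ^ 2 * (Real.cos t ^ 2 * e (Real.cos t) ^ 2) -
        2 * β ^ 3 / κ * (Real.cos t * p (t + φ x))))) (φ x)
    simp only [sub_add_cancel] at h1
    rw [h1]
    have h2 : ∀ t, chi t * (ρ x ^ 3 *
      (3 * β ^ 2 * (Real.cos t ^ 2 * e (Real.cos t) ^ 2) -
        2 * β ^ 3 / κ * (Real.cos t * p (t + φ x)))) =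
        ρ x ^ 3 * (3 * β ^ 2) * (chi t * (Real.cos t ^ 2 * e (Real.cos t) ^ 2)) -
        ρ x ^ 3 * (2 * β ^ 3 / κ) * (chi t * (Real.cos t * p (t + φ x))) := by
      intro t
      ring
    simp only [h2]
    have i1 : Integrable fun t => chi t * (Real.cos t ^ 2 * e (Real.cos t) ^ 2) := by
      obtain ⟨B', hB'⟩ : ∃ B, ∀ c ∈ Icc (-1 : ℝ) 1, |(c ^ 2 * e c ^ 2)| ≤ B := by
        have hcont : ContinuousOn (fun c : ℝ => (c ^ 2 * e c ^ 2)) (Icc (-1 : ℝ) 1) := by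
          fun_prop
        obtain ⟨B, hB⟩ := isCompact_Icc.exists_bound_of_continuousOn hcont
        exact ⟨B, hB⟩
      refine (chi_integrable.mul_const B').mono'
        (by apply Measurable.aestronglyMeasurable; fun_prop) (Eventually.of_forall fun t => ?_)
      rw [norm_mul, Real.norm_eq_abs (chi _), abs_of_nonneg (chi_nonneg _)]
      exact mul_le_mul_of_nonneg_left (hB' _ ⟨Real.neg_one_le_cos _, Real.cos_le_one _⟩)
        (chi_nonneg _)
    have i2 : Integrable fun t => chi t * (Real.cos t * p (t + φ x)) := by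
      refine (chi_integrable.mul_const R).mono'
        (by apply Measurable.aestronglyMeasurable; fun_prop) (Eventually.of_forall fun t => ?_)
      rw [norm_mul, Real.norm_eq_abs (chi _), abs_of_nonneg (chi_nonneg _)]
      refine mul_le_mul_of_nonneg_left ?_ (chi_nonneg _)
      rw [norm_mul]
      have h3 : ‖Real.cos t‖ ≤ 1 := Real.abs_cos_le_one _
      have h4 : ‖p (t + φ x)‖ ≤ R := by
        rw [Real.norm_eq_abs, abs_of_nonneg (hp0 _)]
        exact hp1 _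
      calc _ ≤ 1 * R := by gcongr
        _ = R := one_mul _
    rw [integral_sub (i1.const_mul _) (i2.const_mul _), integral_const_mul, integral_const_mul,
      integral_chi_mul]
    have h5 : ∫ t, chi t * (Real.cos t * p (t + φ x)) = ∫ y, ρ y * ker (φ y - φ x) :=
      constraint_eval ρ φ hm2 hm3 hρi x
    rw [h5]
    ring
  have hHx : Integrable fun x => ∫ α, chi (α - φ x) * (ρ x ^ 3 *
      (3 * β ^ 2 * (Real.cos (α - φ x) ^ 2 * e (Real.cos (α - φ x)) ^ 2) -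
        2 * β ^ 3 / κ * (Real.cos (α - φ x) * p α))) := hHi.integral_prod_right
  refine integral_mono (hρ3.const_mul _) hHx fun x => ?_
  show _ ≤ ∫ α, chi (α - φ x) * (ρ x ^ 3 *
      (3 * β ^ 2 * (Real.cos (α - φ x) ^ 2 * e (Real.cos (α - φ x)) ^ 2) -
        2 * β ^ 3 / κ * (Real.cos (α - φ x) * p α)))
  rw [hinner x]
  show (3 * β ^ 2 * (∫ t in (-(Real.pi / 2))..(Real.pi / 2),
      Real.cos t ^ 2 * e (Real.cos t) ^ 2) - 4 * β ^ 3) * ρ x ^ 3 ≤ _
  rw [mul_comm _ (ρ x ^ 3)]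
  have hx := hρ x
  refine mul_le_mul_of_nonneg_left ?_ (by positivity)
  have h6 : 2 * β ^ 3 / κ * ∫ y, ρ y * ker (φ y - φ x) ≤ 2 * β ^ 3 / κ * (2 * κ) :=
    mul_le_mul_of_nonneg_left (hk x) (by positivity)
  have h7 : 2 * β ^ 3 / κ * (2 * κ) = 4 * β ^ 3 := by
    field_simp
    ring
  linarith

end Vale.Agent.P371S
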