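import Mathlib
import Vale.Agent.P371S.Core3

namespace Vale.Agent.P371S

open MeasureTheory Set Filter Topology
open scoped RealInnerProductSpace

variable {E : Type*} [NormedAddCommGroup E] [InnerProductSpace ℝ E]

theorem ker_le {u u' : ℝ → E} (hu : ∀ x, HasDerivAt u (u' x) x) (hc : Continuous u')
    (hn : ∀ x, ‖u x‖ = 1) (x y : ℝ) :
    ker ((∫ t in (0 : ℝ)..y, 2 * ‖u' t‖) - ∫ t in (0 : ℝ)..x, 2 * ‖u' t‖) ≤ 2 * ⟪u x, u y⟫ ^ 2 := by
  have hcn : Continuous fun t => 2 * ‖u' t‖ := continuous_const.mul hc.norm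
  have h1 : (∫ t in (0 : ℝ)..y, 2 * ‖u' t‖) - ∫ t in (0 : ℝ)..x, 2 * ‖u' t‖ =
      ∫ t in x..y, 2 * ‖u' t‖ :=
    intervalIntegral.integral_interval_sub_left (hcn.intervalIntegrable _ _)
      (hcn.intervalIntegrable _ _)
  rw [h1, intervalIntegral.integral_const_mul]
  have key : ∀ a b : ℝ, a ≤ b → |2 * ∫ t in a..b, ‖u' t‖| < Real.pi →
      1 + Real.cos (2 * ∫ t in a..b, ‖u' t‖) ≤ 2 * ⟪u b, u a⟫ ^ 2 := by
    intro a b hab hlt
    have h0 : 0 ≤ ∫ t in a..b, ‖u' t‖ := intervalIntegral.integral_nonneg hab fun t _ => norm_nonneg _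
    rw [abs_of_nonneg (by positivity)] at hlt
    have h2 := sphere_cos hu hc hn hab (by linarith [Real.pi_pos])
    have h3 : 0 < Real.cos (∫ t in a..b, ‖u' t‖) :=
      Real.cos_pos_of_mem_Ioo ⟨by linarith [Real.pi_pos], by linarith⟩
    rw [Real.cos_two_mul]
    have := pow_le_pow_left₀ h3.le h2 2
    linarith
  unfold ker
  split_ifs with h
  · rcases le_total x y with hxy | hxy
    · rw [real_inner_comm]
      exact key x y hxy h
    · rw [intervalIntegral.integral_symm] at h ⊢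
      rw [mul_neg, abs_neg] at h
      rw [mul_neg, Real.cos_neg]
      exact key y x hxy h
  · positivity

theorem vector_core (q q' : ℝ → E) (hq : ∀ x, HasDerivAt q (q' x) x) (hq'c : Continuous q')
    (hne : ∀ x, q x ≠ 0) (hi : Integrable fun x => ‖q x‖ ^ 2)
    (hi' : Integrable fun x => ‖q' x‖ ^ 2)
    (κ : ℝ) (hκ : 0 < κ) (hG : ∀ e : E, ∫ x, ⟪e, q x⟫ ^ 2 ≤ κ * ‖e‖ ^ 2)
    (β : ℝ) (hβ : 0 ≤ β) (e : ℝ → ℝ) (hec : Continuous e) (he : ∀ c, 0 ≤ c → c ≤ 1 → 0 ≤ e c)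
    (hce : ∀ c, 0 ≤ c → c ≤ 1 → c * e c ^ 3 ≤ 1) :
    Real.pi / 2 / κ ^ 2 * (3 * β ^ 2 * (∫ t in (-(Real.pi / 2))..(Real.pi / 2),
      Real.cos t ^ 2 * e (Real.cos t) ^ 2) - 4 * β ^ 3) * ∫ x, ‖q x‖ ^ 6 ≤ ∫ x, ‖q' x‖ ^ 2 := by
  have hqc : Continuous q := continuous_iff_continuousAt.2 fun x => (hq x).continuousAt
  have hnp : ∀ x, 0 < ‖q x‖ := fun x => norm_pos_iff.2 (hne x)
  set ρ : ℝ → ℝ := fun x => ‖q x‖ ^ 2 with hρdef
  set ρ' : ℝ → ℝ := fun x => 2 * ⟪q x, q' x⟫ with hρ'def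
  have hρd : ∀ x, HasDerivAt ρ (ρ' x) x := fun x => (hq x).norm_sq
  have hρ0 : ∀ x, 0 < ρ x := fun x => by
    have := hnp x
    simp only [hρdef]
    positivity
  have hnd : ∀ x, HasDerivAt (fun x => ‖q x‖) (⟪q x, q' x⟫ / ‖q x‖) x := by
    intro x
    have h1 := (hρd x).sqrt (hρ0 x).ne'
    have h2 : (fun x => √(ρ x)) = fun x => ‖q x‖ := by
      funext y
      simp only [hρdef]
      exact Real.sqrt_sq (norm_nonneg _)
    rw [h2] at h1
    refine h1.congr_deriv ?_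
    simp only [hρdef, hρ'def]
    rw [Real.sqrt_sq (norm_nonneg _)]
    field_simp
  set u : ℝ → E := fun x => (‖q x‖)⁻¹ • q x with hudef
  set u' : ℝ → E := fun x => (‖q x‖)⁻¹ • q' x + (-(⟪q x, q' x⟫ / ‖q x‖) / ‖q x‖ ^ 2) • q x with hu'def
  have hud : ∀ x, HasDerivAt u (u' x) x := by
    intro x
    have h1 := (hnd x).fun_inv (hnp x).ne'
    exact h1.fun_smul (hq x)
  have hu'c : Continuous u' := by
    have h1 : Continuous fun x => (‖q x‖)⁻¹ := hqc.norm.inv₀ fun x => (hnp x).ne'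
    have h2 : Continuous fun x => (-(⟪q x, q' x⟫ / ‖q x‖) / ‖q x‖ ^ 2) :=
      (((hqc.inner hq'c).div hqc.norm fun x => (hnp x).ne').neg).div (hqc.norm.pow 2)
        fun x => pow_ne_zero 2 (hnp x).ne'
    exact (h1.smul hq'c).add (h2.smul hqc)
  have hun : ∀ x, ‖u x‖ = 1 := by
    intro x
    simp only [hudef]
    rw [norm_smul, norm_inv, norm_norm, inv_mul_cancel₀ (hnp x).ne']
  have hu'n : ∀ x, ‖u' x‖ ^ 2 = ‖q' x‖ ^ 2 / ‖q x‖ ^ 2 - ⟪q x, q' x⟫ ^ 2 / ‖q x‖ ^ 4 := by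
    intro x
    have hx := (hnp x).ne'
    simp only [hu'def]
    rw [norm_add_sq_real, norm_smul, norm_smul, inner_smul_left, inner_smul_right,
      real_inner_comm (q x) (q' x)]
    simp only [norm_inv, Real.norm_eq_abs, conj_trivial, mul_pow, sq_abs, abs_norm]
    field_simp
    ring
  set s : ℝ → ℝ := fun x => 2 * ‖u' x‖ with hsdef
  have hsc : Continuous s := continuous_const.mul hu'c.norm
  set φ : ℝ → ℝ := fun x => ∫ t in (0 : ℝ)..x, s t with hφdef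
  have hφd : ∀ x, HasDerivAt φ (s x) x := fun x =>
    intervalIntegral.integral_hasDerivAt_right (hsc.intervalIntegrable _ _)
      (hsc.stronglyMeasurableAtFilter _ _) hsc.continuousAt
  have hρ'c : Continuous ρ' := continuous_const.mul (hqc.inner hq'c)
  have hρc : Continuous ρ := hqc.norm.pow 2
  have hsum : ∀ x, ρ' x ^ 2 / ρ x + ρ x * s x ^ 2 = 4 * ‖q' x‖ ^ 2 := by
    intro x
    have hx := (hnp x).ne'
    simp only [hρdef, hρ'def, hsdef]
    rw [mul_pow 2 ‖u' x‖, hu'n]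
    field_simp
    ring
  have hD1 : ∀ x, 0 ≤ ρ' x ^ 2 / ρ x := fun x => by
    have := hρ0 x
    positivity
  have hD2 : ∀ x, 0 ≤ ρ x * s x ^ 2 := fun x => by
    have := hρ0 x
    positivity
  have hDi : Integrable fun x => ρ' x ^ 2 / ρ x := by
    refine (hi'.const_mul 4).mono' ((hρ'c.pow 2).div hρc fun x => (hρ0 x).ne').aestronglyMeasurable
      (Eventually.of_forall fun x => ?_)
    rw [Real.norm_eq_abs, abs_of_nonneg (hD1 x), ← hsum x]
    linarith [hD2 x]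
  have hDi2 : Integrable fun x => ρ x * s x ^ 2 := by
    refine (hi'.const_mul 4).mono' (hρc.mul (hsc.pow 2)).aestronglyMeasurable
      (Eventually.of_forall fun x => ?_)
    rw [Real.norm_eq_abs, abs_of_nonneg (hD2 x), ← hsum x]
    linarith [hD1 x]
  have hk : ∀ x, ∫ y, ρ y * ker (φ y - φ x) ≤ 2 * κ := by
    intro x
    have hle : ∀ y, ρ y * ker (φ y - φ x) ≤ 2 * ⟪u x, q y⟫ ^ 2 := by
      intro y
      have h1 : ker (φ y - φ x) ≤ 2 * ⟪u x, u y⟫ ^ 2 := ker_le hud hu'c hun x y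
      have h2 : ⟪u x, u y⟫ = (‖q y‖)⁻¹ * ⟪u x, q y⟫ := by
        simp only [hudef]
        rw [inner_smul_right]
      have h3 : ρ y * ker (φ y - φ x) ≤ ρ y * (2 * ⟪u x, u y⟫ ^ 2) :=
        mul_le_mul_of_nonneg_left h1 (hρ0 y).le
      refine h3.trans (le_of_eq ?_)
      have hy := (hnp y).ne'
      rw [h2]
      simp only [hρdef]
      field_simp
    have hii : Integrable fun y => 2 * ⟪u x, q y⟫ ^ 2 := by
      refine (hi.const_mul 2).mono' (by fun_prop) (Eventually.of_forall fun y => ?_)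
      rw [Real.norm_eq_abs, abs_of_nonneg (by positivity)]
      have h1 := abs_real_inner_le_norm (u x) (q y)
      rw [hun x, one_mul] at h1
      have h2 := pow_le_pow_left₀ (abs_nonneg _) h1 2
      rw [sq_abs] at h2
      show 2 * ⟪u x, q y⟫ ^ 2 ≤ 2 * ρ y
      simp only [hρdef]
      linarith
    have hnn : ∀ y, 0 ≤ ρ y * ker (φ y - φ x) := by
      intro y
      refine mul_nonneg (hρ0 y).le ?_
      unfold ker
      split_ifs
      · linarith [Real.neg_one_le_cos (φ y - φ x)]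
      · exact le_rfl
    calc ∫ y, ρ y * ker (φ y - φ x) ≤ ∫ y, 2 * ⟪u x, q y⟫ ^ 2 :=
          integral_mono_of_nonneg (Eventually.of_forall hnn) hii (Eventually.of_forall hle)
      _ = 2 * ∫ y, ⟪u x, q y⟫ ^ 2 := integral_const_mul _ _
      _ ≤ 2 * (κ * ‖u x‖ ^ 2) := by linarith [hG (u x)]
      _ = 2 * κ := by rw [hun x]; ring
  have hmain := scalar_core ρ ρ' φ s hρd hφd hρ'c hsc hρ0 hi hDi hDi2 κ hκ hk β hβ e hec he hce
  simp only [hsum] at hmain
  rw [integral_const_mul] at hmain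
  have h6 : ∫ x, ρ x ^ 3 = ∫ x, ‖q x‖ ^ 6 := by
    refine integral_congr_ae (Eventually.of_forall fun x => ?_)
    simp only [hρdef]
    ring
  rw [h6] at hmain
  have hpi := Real.pi_pos
  have h7 : Real.pi ^ 2 / κ ^ 2 = 2 * Real.pi * (Real.pi / 2 / κ ^ 2) := by
    field_simp
  rw [h7] at hmain
  have h8 : 2 * Real.pi * (Real.pi / 2 / κ ^ 2 * (3 * β ^ 2 * (∫ t in (-(Real.pi / 2))..(Real.pi / 2),
      Real.cos t ^ 2 * e (Real.cos t) ^ 2) - 4 * β ^ 3) * ∫ x, ‖q x‖ ^ 6) ≤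
      2 * Real.pi * ∫ x, ‖q' x‖ ^ 2 := by
    calc _ = 2 * Real.pi * (Real.pi / 2 / κ ^ 2) * (3 * β ^ 2 *
        (∫ t in (-(Real.pi / 2))..(Real.pi / 2),
      Real.cos t ^ 2 * e (Real.cos t) ^ 2) - 4 * β ^ 3) * ∫ x, ‖q x‖ ^ 6 := by ring
      _ ≤ _ := hmain
      _ = _ := by ring
  exact le_of_mul_le_mul_left h8 (by positivity)

end Vale.Agent.P371S
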