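import Mathlib
import Vale.Agent.P371S.Core4

namespace Vale.Agent.P371S

open MeasureTheory Set Filter Topology
open scoped RealInnerProductSpace Convolution

theorem avg_int {G : ℝ → ℝ} (hG : Integrable G) {ε : ℝ} (hε : 0 < ε) :
    Integrable (fun x => ε⁻¹ * ∫ y in (x - ε)..x, G y) ∧
    ∫ x, (ε⁻¹ * ∫ y in (x - ε)..x, G y) = ∫ x, G x := by
  set f : ℝ → ℝ := (Ioc 0 ε).indicator fun _ => 1 with hf
  have hfi : Integrable f := by
    rw [hf, integrable_indicator_iff measurableSet_Ioc]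
    exact integrableOn_const (by simp)
  have hfint : ∫ x, f x = ε := by
    rw [hf, integral_indicator measurableSet_Ioc, setIntegral_const]
    simp [hε.le]
  have h1 : ∀ x, (f ⋆[ContinuousLinearMap.mul ℝ ℝ, volume] G) x = ∫ y in (x - ε)..x, G y := by
    intro x
    rw [convolution_def]
    have h2 : (fun t => (ContinuousLinearMap.mul ℝ ℝ (f t)) (G (x - t))) =
        (Ioc 0 ε).indicator fun t => G (x - t) := by
      funext t
      by_cases ht : t ∈ Ioc 0 ε
      · simp [hf, ht]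
      · simp [hf, ht]
    rw [h2, integral_indicator measurableSet_Ioc, ← intervalIntegral.integral_of_le hε.le,
      intervalIntegral.integral_comp_sub_left, sub_zero]
  constructor
  · have := (hfi.integrable_convolution (ContinuousLinearMap.mul ℝ ℝ) hG).const_mul ε⁻¹
    simpa only [h1] using this
  · have := integral_convolution (μ := volume) (ν := volume) (ContinuousLinearMap.mul ℝ ℝ) hfi hG
    simp only [h1] at this
    rw [integral_const_mul, this, hfint]
    simp only [ContinuousLinearMap.mul_apply']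
    field_simp

theorem avg_sq_le {g : ℝ → ℝ} {a ε : ℝ} (hε : 0 < ε)
    (h1 : IntervalIntegrable g volume (a - ε) a)
    (h2 : IntervalIntegrable (fun x => g x ^ 2) volume (a - ε) a) :
    (ε⁻¹ * ∫ y in (a - ε)..a, g y) ^ 2 ≤ ε⁻¹ * ∫ y in (a - ε)..a, g y ^ 2 := by
  set m : ℝ := ε⁻¹ * ∫ y in (a - ε)..a, g y with hm
  have h3 : 0 ≤ ∫ y in (a - ε)..a, (g y - m) ^ 2 :=
    intervalIntegral.integral_nonneg (by linarith) fun y _ => sq_nonneg _
  have h4 : ∀ y, (g y - m) ^ 2 = g y ^ 2 - 2 * m * g y + m ^ 2 := fun y => by ring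
  simp only [h4] at h3
  rw [intervalIntegral.integral_add (h2.sub (h1.const_mul _)) (by simp),
    intervalIntegral.integral_sub h2 (h1.const_mul _), intervalIntegral.integral_const_mul,
    intervalIntegral.integral_const] at h3
  have h5 : ∫ y in (a - ε)..a, g y = ε * m := by
    rw [hm]
    field_simp
  rw [h5] at h3
  simp only [sub_sub_cancel, smul_eq_mul] at h3
  rw [← sub_nonneg]
  have h6 : ε⁻¹ * (∫ y in (a - ε)..a, g y ^ 2) - m ^ 2 =
      ε⁻¹ * ((∫ y in (a - ε)..a, g y ^ 2) - 2 * m * (ε * m) + ε * m ^ 2) := by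
    field_simp
    ring
  rw [h6]
  exact mul_nonneg (inv_nonneg.2 hε.le) h3

theorem avg_cont {F : Type*} [NormedAddCommGroup F] [NormedSpace ℝ F] {g : ℝ → F}
    (hg : ∀ a b, IntervalIntegrable g volume a b) (ε : ℝ) :
    Continuous fun x => ∫ y in (x - ε)..x, g y := by
  have h1 : (fun x => ∫ y in (x - ε)..x, g y) =
      fun x => (∫ y in (0 : ℝ)..x, g y) - ∫ y in (0 : ℝ)..(x - ε), g y := by
    funext x
    rw [intervalIntegral.integral_interval_sub_left (hg _ _) (hg _ _)]
  rw [h1]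
  have h2 := intervalIntegral.continuous_primitive hg 0
  exact h2.sub (h2.comp (continuous_id.sub continuous_const))

theorem avg_lemma {g : ℝ → ℝ} (hg : Integrable fun x => g x ^ 2)
    (hgi : ∀ a b, IntervalIntegrable g volume a b) {ε : ℝ} (hε : 0 < ε) :
    Integrable (fun x => (ε⁻¹ * ∫ y in (x - ε)..x, g y) ^ 2) ∧
    ∫ x, (ε⁻¹ * ∫ y in (x - ε)..x, g y) ^ 2 ≤ ∫ x, g x ^ 2 := by
  obtain ⟨h1, h2⟩ := avg_int hg hε
  have hle : ∀ x, (ε⁻¹ * ∫ y in (x - ε)..x, g y) ^ 2 ≤ ε⁻¹ * ∫ y in (x - ε)..x, g y ^ 2 :=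
    fun x => avg_sq_le hε (hgi _ _) hg.intervalIntegrable
  have h3 : Integrable (fun x => (ε⁻¹ * ∫ y in (x - ε)..x, g y) ^ 2) := by
    refine h1.mono' ((continuous_const.mul (avg_cont hgi ε)).pow 2).aestronglyMeasurable
      (Eventually.of_forall fun x => ?_)
    rw [Real.norm_eq_abs, abs_of_nonneg (sq_nonneg _)]
    exact hle x
  exact ⟨h3, (integral_mono h3 h1 hle).trans h2.le⟩

end Vale.Agent.P371S
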