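import Mathlib
import Vale.Agent.P371S.Approx

namespace Vale.Agent.P371S

open MeasureTheory Set Filter Topology
open scoped RealInnerProductSpace

variable {E : Type*} [NormedAddCommGroup E] [InnerProductSpace ℝ E]

def CoreIneq (E : Type*) [NormedAddCommGroup E] [InnerProductSpace ℝ E] (A : ℝ) : Prop :=
  ∀ (q q' : ℝ → E), (∀ x, HasDerivAt q (q' x) x) → Continuous q' → (∀ x, q x ≠ 0) →
    (Integrable fun x => ‖q x‖ ^ 2) → (Integrable fun x => ‖q' x‖ ^ 2) → ∀ κ : ℝ, 0 < κ →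
    (∀ e : E, ∫ x, ⟪e, q x⟫ ^ 2 ≤ κ * ‖e‖ ^ 2) →
    A / κ ^ 2 * ∫ x, ‖q x‖ ^ 6 ≤ ∫ x, ‖q' x‖ ^ 2

theorem six_int (q q' : ℝ → E) (hq : ∀ x, HasDerivAt q (q' x) x) (hq'c : Continuous q')
    (hi : Integrable fun x => ‖q x‖ ^ 2) (hi' : Integrable fun x => ‖q' x‖ ^ 2) :
    Integrable fun x => ‖q x‖ ^ 6 := by
  have hqc : Continuous q := continuous_iff_continuousAt.2 fun x => (hq x).continuousAt
  have hρd : ∀ x, HasDerivAt (fun x => ‖q x‖ ^ 2) (2 * ⟪q x, q' x⟫) x := fun x => (hq x).norm_sq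
  have hρ'i : Integrable fun x => 2 * ⟪q x, q' x⟫ := by
    refine (hi.add hi').mono' (continuous_const.mul (hqc.inner hq'c)).aestronglyMeasurable
      (Eventually.of_forall fun x => ?_)
    rw [Real.norm_eq_abs, abs_mul, abs_two]
    have h1 := abs_real_inner_le_norm (q x) (q' x)
    show _ ≤ ‖q x‖ ^ 2 + ‖q' x‖ ^ 2
    nlinarith [sq_nonneg (‖q x‖ - ‖q' x‖)]
  obtain ⟨M, hM⟩ : ∃ M, ∀ x, ‖q x‖ ^ 2 ≤ M := ⟨_, rho_le hρd hi hρ'i⟩
  refine (hi.const_mul (M ^ 2)).mono' (hqc.norm.pow 6).aestronglyMeasurable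
    (Eventually.of_forall fun x => ?_)
  rw [Real.norm_eq_abs, abs_of_nonneg (by positivity)]
  have h2 : (‖q x‖ ^ 2) ^ 2 ≤ M ^ 2 := pow_le_pow_left₀ (by positivity) (hM x) 2
  calc ‖q x‖ ^ 6 = (‖q x‖ ^ 2) ^ 2 * ‖q x‖ ^ 2 := by ring
    _ ≤ M ^ 2 * ‖q x‖ ^ 2 := mul_le_mul_of_nonneg_right h2 (by positivity)

noncomputable def gg (x : ℝ) : ℝ := (1 + x ^ 2)⁻¹

noncomputable def gg' (x : ℝ) : ℝ := -(2 * x) / (1 + x ^ 2) ^ 2

theorem gg_pos (x : ℝ) : 0 < gg x := by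
  unfold gg
  positivity

theorem gg_le_one (x : ℝ) : gg x ≤ 1 := by
  unfold gg
  exact inv_le_one_of_one_le₀ (by nlinarith [sq_nonneg x])

theorem gg_deriv (x : ℝ) : HasDerivAt gg (gg' x) x := by
  have h1 : HasDerivAt (fun x : ℝ => 1 + x ^ 2) (2 * x) x := by
    simpa using (hasDerivAt_pow 2 x).const_add 1
  exact h1.fun_inv (by positivity)

theorem gg'_cont : Continuous gg' := by
  unfold gg'
  exact Continuous.div (by fun_prop) (by fun_prop) fun x => by positivity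

theorem gg_cont : Continuous gg := continuous_iff_continuousAt.2 fun x => (gg_deriv x).continuousAt

theorem gg_sq_int : Integrable fun x => gg x ^ 2 := by
  refine integrable_inv_one_add_sq.mono' (gg_cont.pow 2).aestronglyMeasurable
    (Eventually.of_forall fun x => ?_)
  rw [Real.norm_eq_abs, abs_of_nonneg (sq_nonneg _)]
  have h1 := gg_pos x
  have h2 := gg_le_one x
  show gg x ^ 2 ≤ gg x
  nlinarith

theorem gg'_sq_int : Integrable fun x => gg' x ^ 2 := by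
  refine integrable_inv_one_add_sq.mono' (gg'_cont.pow 2).aestronglyMeasurable
    (Eventually.of_forall fun x => ?_)
  rw [Real.norm_eq_abs, abs_of_nonneg (sq_nonneg _)]
  unfold gg'
  rw [div_pow, div_le_iff₀ (by positivity)]
  have h1 : (1 + x ^ 2)⁻¹ * ((1 + x ^ 2) ^ 2) ^ 2 = (1 + x ^ 2) ^ 3 := by
    field_simp
  rw [h1]
  nlinarith [sq_nonneg x, pow_nonneg (sq_nonneg x) 2, pow_nonneg (sq_nonneg x) 3,
    sq_nonneg (x ^ 2 - 1)]

theorem regularized (A : ℝ) (hA : CoreIneq E A) (q q' : ℝ → E)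
    (hq : ∀ x, HasDerivAt q (q' x) x) (hq'c : Continuous q')
    (hi : Integrable fun x => ‖q x‖ ^ 2) (hi' : Integrable fun x => ‖q' x‖ ^ 2)
    (w : E) (hw : ‖w‖ = 1) (hwq : ∀ x, ⟪w, q x⟫ = 0)
    (κ : ℝ) (hκ : 0 < κ) (hG : ∀ e : E, ∫ x, ⟪e, q x⟫ ^ 2 ≤ κ * ‖e‖ ^ 2) (hA0 : 0 ≤ A) :
    A / κ ^ 2 * ∫ x, ‖q x‖ ^ 6 ≤ ∫ x, ‖q' x‖ ^ 2 := by
  have hqc : Continuous q := continuous_iff_continuousAt.2 fun x => (hq x).continuousAt
  have hwq' : ∀ x, ⟪w, q' x⟫ = 0 := by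
    intro x
    have h1 : HasDerivAt (fun x => ⟪w, q x⟫) (⟪w, q' x⟫ + ⟪(0 : E), q x⟫) x :=
      (hasDerivAt_const x w).inner ℝ (hq x)
    have h2 : (fun x => ⟪w, q x⟫) = fun _ => (0 : ℝ) := funext hwq
    rw [h2, inner_zero_left, add_zero] at h1
    exact h1.unique (hasDerivAt_const x (0 : ℝ))
  set γ₀ : ℝ := ∫ x, gg x ^ 2 with hγ
  have hγ0 : 0 < γ₀ := by
    rw [hγ, integral_pos_iff_support_of_nonneg (fun x => sq_nonneg _) gg_sq_int]
    have : Function.support (fun x => gg x ^ 2) = univ := by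
      ext x
      simp [(gg_pos x).ne']
    rw [this]
    simp
  set c₁ : ℝ := ∫ x, gg' x ^ 2 with hc₁
  have key : ∀ δ : ℝ, 0 < δ →
      A / (κ + δ ^ 2 * γ₀) ^ 2 * ∫ x, ‖q x‖ ^ 6 ≤ (∫ x, ‖q' x‖ ^ 2) + δ ^ 2 * c₁ := by
    intro δ hδ
    set Q : ℝ → E := fun x => q x + (δ * gg x) • w with hQ
    set Q' : ℝ → E := fun x => q' x + (δ * gg' x) • w with hQ'
    have hQd : ∀ x, HasDerivAt Q (Q' x) x := fun x =>
      (hq x).add (((gg_deriv x).const_mul δ).smul_const w)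
    have hQ'c : Continuous Q' := hq'c.add ((continuous_const.mul gg'_cont).smul continuous_const)
    have hQn : ∀ x, ‖Q x‖ ^ 2 = ‖q x‖ ^ 2 + δ ^ 2 * gg x ^ 2 := by
      intro x
      simp only [hQ]
      rw [norm_add_sq_real, inner_smul_right, real_inner_comm, hwq, norm_smul, hw,
        Real.norm_eq_abs, mul_one, sq_abs]
      ring
    have hQn' : ∀ x, ‖Q' x‖ ^ 2 = ‖q' x‖ ^ 2 + δ ^ 2 * gg' x ^ 2 := by
      intro x
      simp only [hQ']
      rw [norm_add_sq_real, inner_smul_right, real_inner_comm, hwq', norm_smul, hw,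
        Real.norm_eq_abs, mul_one, sq_abs]
      ring
    have hQ0 : ∀ x, Q x ≠ 0 := by
      intro x hx
      have h1 := hQn x
      rw [hx, norm_zero] at h1
      have := gg_pos x
      have h2 : 0 < δ ^ 2 * gg x ^ 2 := by positivity
      nlinarith [sq_nonneg ‖q x‖]
    have hQi : Integrable fun x => ‖Q x‖ ^ 2 := by
      simp only [hQn]
      exact hi.add (gg_sq_int.const_mul _)
    have hQi' : Integrable fun x => ‖Q' x‖ ^ 2 := by
      simp only [hQn']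
      exact hi'.add (gg'_sq_int.const_mul _)
    have hQG : ∀ e : E, ∫ x, ⟪e, Q x⟫ ^ 2 ≤ (κ + δ ^ 2 * γ₀) * ‖e‖ ^ 2 := by
      intro e
      set b : ℝ := ⟪e, w⟫ with hb
      set e₁ : E := e - b • w with he₁
      have h1 : ∀ x, ⟪e₁, q x⟫ = ⟪e, q x⟫ := by
        intro x
        simp only [he₁]
        rw [inner_sub_left, inner_smul_left, hwq]
        simp
      have h2 : ‖e‖ ^ 2 = ‖e₁‖ ^ 2 + b ^ 2 := by
        simp only [he₁]
        rw [norm_sub_sq_real, inner_smul_right, norm_smul, hw, Real.norm_eq_abs, mul_one, sq_abs,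
          ← hb]
        ring
      set η : ℝ := δ ^ 2 * γ₀ / κ with hη
      have hη0 : 0 < η := by positivity
      have h3 : ∀ x, ⟪e, Q x⟫ ^ 2 ≤ (1 + η) * ⟪e₁, q x⟫ ^ 2 + (1 + η⁻¹) * (δ ^ 2 * b ^ 2) * gg x ^ 2 := by
        intro x
        simp only [hQ]
        rw [inner_add_right, inner_smul_right, ← hb, h1]
        have h4 : (1 + η) * ⟪e, q x⟫ ^ 2 + (1 + η⁻¹) * (δ ^ 2 * b ^ 2) * gg x ^ 2 -
            (⟪e, q x⟫ + δ * gg x * b) ^ 2 = η⁻¹ * (η * ⟪e, q x⟫ - δ * gg x * b) ^ 2 := by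
          field_simp
          ring
        have h5 : 0 ≤ η⁻¹ * (η * ⟪e, q x⟫ - δ * gg x * b) ^ 2 := by positivity
        linarith
      have hi1 : Integrable fun x => ⟪e₁, q x⟫ ^ 2 := by
        refine (hi.const_mul (‖e₁‖ ^ 2)).mono' (by fun_prop) (Eventually.of_forall fun x => ?_)
        rw [Real.norm_eq_abs, abs_of_nonneg (by positivity), ← sq_abs, ← mul_pow]
        exact pow_le_pow_left₀ (abs_nonneg _) (abs_real_inner_le_norm _ _) 2
      have h6 : ∫ x, ⟪e, Q x⟫ ^ 2 ≤ ∫ x, ((1 + η) * ⟪e₁, q x⟫ ^ 2 +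
          (1 + η⁻¹) * (δ ^ 2 * b ^ 2) * gg x ^ 2) :=
        integral_mono_of_nonneg (Eventually.of_forall fun x => sq_nonneg _)
          ((hi1.const_mul _).add (gg_sq_int.const_mul _)) (Eventually.of_forall h3)
      rw [integral_add (hi1.const_mul _) (gg_sq_int.const_mul _), integral_const_mul,
        integral_const_mul, ← hγ] at h6
      have h7 := hG e₁
      have h8 : (1 + η) * ∫ x, ⟪e₁, q x⟫ ^ 2 ≤ (1 + η) * (κ * ‖e₁‖ ^ 2) :=
        mul_le_mul_of_nonneg_left h7 (by positivity)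
      have h9 : (1 + η) * (κ * ‖e₁‖ ^ 2) + (1 + η⁻¹) * (δ ^ 2 * b ^ 2) * γ₀ =
          (κ + δ ^ 2 * γ₀) * ‖e‖ ^ 2 := by
        rw [h2, hη]
        field_simp
        ring
      linarith
    have hcore := hA Q Q' hQd hQ'c hQ0 hQi hQi' (κ + δ ^ 2 * γ₀) (by positivity) hQG
    have h10 : ∫ x, ‖Q' x‖ ^ 2 = (∫ x, ‖q' x‖ ^ 2) + δ ^ 2 * c₁ := by
      simp only [hQn']
      rw [integral_add hi' (gg'_sq_int.const_mul _), integral_const_mul]
    rw [h10] at hcore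
    refine le_trans (mul_le_mul_of_nonneg_left ?_ (by positivity)) hcore
    refine integral_mono (six_int q q' hq hq'c hi hi') (six_int Q Q' hQd hQ'c hQi hQi') fun x => ?_
    have h11 : ‖q x‖ ^ 2 ≤ ‖Q x‖ ^ 2 := by
      rw [hQn]
      have : 0 ≤ δ ^ 2 * gg x ^ 2 := by positivity
      linarith
    calc ‖q x‖ ^ 6 = (‖q x‖ ^ 2) ^ 3 := by ring
      _ ≤ (‖Q x‖ ^ 2) ^ 3 := pow_le_pow_left₀ (by positivity) h11 3
      _ = ‖Q x‖ ^ 6 := by ring
  have hl1 : Tendsto (fun δ : ℝ => A / (κ + δ ^ 2 * γ₀) ^ 2 * ∫ x, ‖q x‖ ^ 6) (𝓝[>] 0)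
      (𝓝 (A / κ ^ 2 * ∫ x, ‖q x‖ ^ 6)) := by
    have h1 : ContinuousAt (fun δ : ℝ => A / (κ + δ ^ 2 * γ₀) ^ 2 * ∫ x, ‖q x‖ ^ 6) 0 := by
      refine ContinuousAt.mul (ContinuousAt.div (by fun_prop) (by fun_prop) ?_) (by fun_prop)
      simp [hκ.ne']
    have h2 := h1.tendsto
    simp only [ne_eq, OfNat.ofNat_ne_zero, not_false_eq_true, zero_pow, zero_mul, add_zero] at h2
    exact h2.mono_left nhdsWithin_le_nhds
  have hl2 : Tendsto (fun δ : ℝ => (∫ x, ‖q' x‖ ^ 2) + δ ^ 2 * c₁) (𝓝[>] 0)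
      (𝓝 (∫ x, ‖q' x‖ ^ 2)) := by
    have h1 : Continuous (fun δ : ℝ => (∫ x, ‖q' x‖ ^ 2) + δ ^ 2 * c₁) := by fun_prop
    have h2 := h1.tendsto 0
    simp only [ne_eq, OfNat.ofNat_ne_zero, not_false_eq_true, zero_pow, zero_mul, add_zero] at h2
    exact h2.mono_left nhdsWithin_le_nhds
  refine le_of_tendsto_of_tendsto hl1 hl2 ?_
  filter_upwards [self_mem_nhdsWithin] with δ hδ
  exact key δ hδ

end Vale.Agent.P371S
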