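import Mathlib
import Vale.Agent.P371S.Approx2

namespace Vale.Agent.P371S

open MeasureTheory Set Filter Topology
open scoped RealInnerProductSpace ENNReal

variable {E : Type*} [NormedAddCommGroup E] [InnerProductSpace ℝ E] [CompleteSpace E]

theorem cont_of_ftc {q q' : ℝ → E} (hl : ∀ a b, IntervalIntegrable q' volume a b)
    (hF : ∀ a b, q b - q a = ∫ x in a..b, q' x) : Continuous q := by
  have h1 : q = fun x => q 0 + ∫ y in (0 : ℝ)..x, q' y := by
    funext x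
    rw [← hF 0 x]
    abel
  rw [h1]
  exact continuous_const.add (intervalIntegral.continuous_primitive hl 0)

theorem moll_step (A : ℝ) (hA : CoreIneq E A) (hA0 : 0 ≤ A) (q q' : ℝ → E)
    (hi : Integrable fun x => ‖q x‖ ^ 2) (hi' : Integrable fun x => ‖q' x‖ ^ 2)
    (hl : ∀ a b, IntervalIntegrable q' volume a b) (hF : ∀ a b, q b - q a = ∫ x in a..b, q' x)
    (w : E) (hw : ‖w‖ = 1) (hwq : ∀ x, ⟪w, q x⟫ = 0)
    (κ : ℝ) (hκ : 0 < κ) (hG : ∀ e : E, ∫ x, ⟪e, q x⟫ ^ 2 ≤ κ * ‖e‖ ^ 2) (ε : ℝ) (hε : 0 < ε) :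
    (Integrable fun x => ‖ε⁻¹ • ∫ y in (x - ε)..x, q y‖ ^ 6) ∧
    A / κ ^ 2 * ∫ x, ‖ε⁻¹ • ∫ y in (x - ε)..x, q y‖ ^ 6 ≤ ∫ x, ‖q' x‖ ^ 2 := by
  have hqc : Continuous q := cont_of_ftc hl hF
  have hql : ∀ a b, IntervalIntegrable q volume a b := fun a b => hqc.intervalIntegrable a b
  set Q : ℝ → E := fun x => ε⁻¹ • ∫ y in (x - ε)..x, q y with hQ
  set Q' : ℝ → E := fun x => ε⁻¹ • (q x - q (x - ε)) with hQ'
  have hQd : ∀ x, HasDerivAt Q (Q' x) x := by
    intro x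
    have h1 : ∀ z, HasDerivAt (fun x => ∫ y in (0 : ℝ)..x, q y) (q z) z := fun z =>
      intervalIntegral.integral_hasDerivAt_right (hql _ _)
        (hqc.stronglyMeasurableAtFilter _ _) hqc.continuousAt
    have h2 : HasDerivAt (fun x => ∫ y in (0 : ℝ)..(x - ε), q y) (q (x - ε)) x := by
      have h3 : HasDerivAt (fun x : ℝ => x - ε) 1 x := (hasDerivAt_id x).sub_const ε
      have h4 := (h1 (x - ε)).scomp x h3
      rwa [one_smul] at h4
    have h5 : Q = fun x => ε⁻¹ • ((∫ y in (0 : ℝ)..x, q y) - ∫ y in (0 : ℝ)..(x - ε), q y) := by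
      funext z
      simp only [hQ]
      rw [intervalIntegral.integral_interval_sub_left (hql _ _) (hql _ _)]
    rw [h5]
    exact ((h1 x).sub h2).const_smul ε⁻¹
  have hQ'c : Continuous Q' := (hqc.sub (hqc.comp (continuous_id.sub continuous_const))).const_smul _
  have hQ'e : ∀ x, Q' x = ε⁻¹ • ∫ y in (x - ε)..x, q' y := by
    intro x
    simp only [hQ']
    rw [hF]
  have hnl : ∀ a b, IntervalIntegrable (fun x => ‖q x‖) volume a b := fun a b => (hql a b).norm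
  have hnl' : ∀ a b, IntervalIntegrable (fun x => ‖q' x‖) volume a b := fun a b => (hl a b).norm
  obtain ⟨a1, a2⟩ := avg_lemma hi hnl hε
  obtain ⟨b1, b2⟩ := avg_lemma hi' hnl' hε
  have hQn : ∀ x, ‖Q x‖ ^ 2 ≤ (ε⁻¹ * ∫ y in (x - ε)..x, ‖q y‖) ^ 2 := by
    intro x
    refine pow_le_pow_left₀ (norm_nonneg _) ?_ 2
    simp only [hQ]
    rw [norm_smul, norm_inv, Real.norm_eq_abs, abs_of_pos hε]
    exact mul_le_mul_of_nonneg_left (intervalIntegral.norm_integral_le_integral_norm (by linarith))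
      (inv_nonneg.2 hε.le)
  have hQn' : ∀ x, ‖Q' x‖ ^ 2 ≤ (ε⁻¹ * ∫ y in (x - ε)..x, ‖q' y‖) ^ 2 := by
    intro x
    rw [hQ'e]
    refine pow_le_pow_left₀ (norm_nonneg _) ?_ 2
    rw [norm_smul, norm_inv, Real.norm_eq_abs, abs_of_pos hε]
    exact mul_le_mul_of_nonneg_left (intervalIntegral.norm_integral_le_integral_norm (by linarith))
      (inv_nonneg.2 hε.le)
  have hQc : Continuous Q := continuous_iff_continuousAt.2 fun x => (hQd x).continuousAt
  have hQi : Integrable fun x => ‖Q x‖ ^ 2 := by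
    refine a1.mono' (hQc.norm.pow 2).aestronglyMeasurable (Eventually.of_forall fun x => ?_)
    rw [Real.norm_eq_abs, abs_of_nonneg (by positivity)]
    exact hQn x
  have hQi' : Integrable fun x => ‖Q' x‖ ^ 2 := by
    refine b1.mono' (hQ'c.norm.pow 2).aestronglyMeasurable (Eventually.of_forall fun x => ?_)
    rw [Real.norm_eq_abs, abs_of_nonneg (by positivity)]
    exact hQn' x
  have hinner : ∀ (e : E) x, ⟪e, Q x⟫ = ε⁻¹ * ∫ y in (x - ε)..x, ⟪e, q y⟫ := by
    intro e x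
    simp only [hQ]
    rw [inner_smul_right]
    congr 1
    exact ((innerSL ℝ e).intervalIntegral_comp_comm (hql _ _)).symm
  have hwQ : ∀ x, ⟪w, Q x⟫ = 0 := by
    intro x
    rw [hinner]
    simp [hwq]
  have hQG : ∀ e : E, ∫ x, ⟪e, Q x⟫ ^ 2 ≤ κ * ‖e‖ ^ 2 := by
    intro e
    have hi1 : Integrable fun x => ⟪e, q x⟫ ^ 2 := by
      refine (hi.const_mul (‖e‖ ^ 2)).mono' (by fun_prop) (Eventually.of_forall fun x => ?_)
      rw [Real.norm_eq_abs, abs_of_nonneg (by positivity), ← sq_abs, ← mul_pow]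
      exact pow_le_pow_left₀ (abs_nonneg _) (abs_real_inner_le_norm _ _) 2
    have hcont : Continuous fun y => ⟪e, q y⟫ := continuous_const.inner hqc
    obtain ⟨_, c2⟩ := avg_lemma hi1 (fun a b => hcont.intervalIntegrable a b) hε
    simp only [hinner]
    exact c2.trans (hG e)
  refine ⟨six_int Q Q' hQd hQ'c hQi hQi', ?_⟩
  refine (regularized A hA Q Q' hQd hQ'c hQi hQi' w hw hwQ κ hκ hQG hA0).trans ?_
  exact (integral_mono hQi' b1 hQn').trans b2

theorem avg_tendsto {q : ℝ → E} (hqc : Continuous q) (x : ℝ) :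
    Tendsto (fun ε : ℝ => ε⁻¹ • ∫ y in (x - ε)..x, q y) (𝓝[>] 0) (𝓝 (q x)) := by
  rw [Metric.tendsto_nhdsWithin_nhds]
  intro η hη
  obtain ⟨δ, hδ, h⟩ := Metric.continuousAt_iff.1 (hqc.continuousAt (x := x)) (η / 2) (by positivity)
  refine ⟨δ, hδ, fun {ε} hε hεδ => ?_⟩
  have hε0 : 0 < ε := hε
  rw [Real.dist_eq, sub_zero, abs_of_pos hε0] at hεδ
  have h1 : (ε⁻¹ • ∫ y in (x - ε)..x, q y) - q x = ε⁻¹ • ∫ y in (x - ε)..x, (q y - q x) := by
    rw [intervalIntegral.integral_sub (hqc.intervalIntegrable _ _) (by simp),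
      intervalIntegral.integral_const, sub_sub_cancel, smul_sub, smul_smul,
      inv_mul_cancel₀ hε0.ne', one_smul]
  rw [dist_eq_norm, h1, norm_smul, norm_inv, Real.norm_eq_abs, abs_of_pos hε0]
  have h2 : ‖∫ y in (x - ε)..x, (q y - q x)‖ ≤ (η / 2) * |x - (x - ε)| := by
    refine intervalIntegral.norm_integral_le_of_norm_le_const fun y hy => ?_
    rw [uIoc_of_le (by linarith)] at hy
    have h3 : dist y x < δ := by
      rw [Real.dist_eq, abs_lt]
      constructor <;> linarith [hy.1, hy.2]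
    have h4 := h h3
    rw [dist_eq_norm] at h4
    exact h4.le
  rw [sub_sub_cancel, abs_of_pos hε0] at h2
  calc ε⁻¹ * ‖∫ y in (x - ε)..x, (q y - q x)‖ ≤ ε⁻¹ * (η / 2 * ε) :=
        mul_le_mul_of_nonneg_left h2 (inv_nonneg.2 hε0.le)
    _ = η / 2 := by field_simp
    _ < η := by linarith

theorem kinetic (A : ℝ) (hA : CoreIneq E A) (hA0 : 0 < A) (q q' : ℝ → E)
    (hi : Integrable fun x => ‖q x‖ ^ 2) (hi' : Integrable fun x => ‖q' x‖ ^ 2)
    (hl : ∀ a b, IntervalIntegrable q' volume a b) (hF : ∀ a b, q b - q a = ∫ x in a..b, q' x)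
    (w : E) (hw : ‖w‖ = 1) (hwq : ∀ x, ⟪w, q x⟫ = 0)
    (κ : ℝ) (hκ : 0 < κ) (hG : ∀ e : E, ∫ x, ⟪e, q x⟫ ^ 2 ≤ κ * ‖e‖ ^ 2) :
    (Integrable fun x => ‖q x‖ ^ 6) ∧ A / κ ^ 2 * ∫ x, ‖q x‖ ^ 6 ≤ ∫ x, ‖q' x‖ ^ 2 := by
  have hqc : Continuous q := cont_of_ftc hl hF
  set T : ℝ := ∫ x, ‖q' x‖ ^ 2 with hT
  have hAκ : 0 < A / κ ^ 2 := by positivity
  set B : ℝ := T / (A / κ ^ 2) with hB
  let ε : ℕ → ℝ := fun n => 1 / ((n : ℝ) + 1)
  have hε : ∀ n, 0 < ε n := fun n => by positivity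
  have hε0 : Tendsto ε atTop (𝓝[>] 0) := by
    rw [tendsto_nhdsWithin_iff]
    exact ⟨tendsto_one_div_add_atTop_nhds_zero_nat, Eventually.of_forall hε⟩
  have hstep := fun n => moll_step A hA hA0.le q q' hi hi' hl hF w hw hwq κ hκ hG (ε n) (hε n)
  set Q : ℕ → ℝ → E := fun n x => (ε n)⁻¹ • ∫ y in (x - ε n)..x, q y with hQ
  have hQc : ∀ n, Continuous (Q n) := fun n =>
    (avg_cont (fun a b => hqc.intervalIntegrable a b) (ε n)).const_smul _
  have hQlim : ∀ x, Tendsto (fun n => ENNReal.ofReal (‖Q n x‖ ^ 6)) atTop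
      (𝓝 (ENNReal.ofReal (‖q x‖ ^ 6))) := by
    intro x
    have h1 : Tendsto (fun n => Q n x) atTop (𝓝 (q x)) := (avg_tendsto hqc x).comp hε0
    exact (ENNReal.continuous_ofReal.tendsto _).comp ((h1.norm).pow 6)
  have hle : ∀ n, ∫⁻ x, ENNReal.ofReal (‖Q n x‖ ^ 6) ≤ ENNReal.ofReal B := by
    intro n
    rw [← ofReal_integral_eq_lintegral_ofReal (hstep n).1
      (Eventually.of_forall fun x => by positivity)]
    refine ENNReal.ofReal_le_ofReal ?_
    rw [hB, le_div_iff₀ hAκ, mul_comm]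
    exact (hstep n).2
  have hfatou : ∫⁻ x, ENNReal.ofReal (‖q x‖ ^ 6) ≤ ENNReal.ofReal B := by
    calc ∫⁻ x, ENNReal.ofReal (‖q x‖ ^ 6)
        = ∫⁻ x, liminf (fun n => ENNReal.ofReal (‖Q n x‖ ^ 6)) atTop :=
          lintegral_congr fun x => ((hQlim x).liminf_eq).symm
      _ ≤ liminf (fun n => ∫⁻ x, ENNReal.ofReal (‖Q n x‖ ^ 6)) atTop :=
          lintegral_liminf_le fun n => by
            have := hQc n
            have h2 : Continuous fun x => ‖Q n x‖ ^ 6 := this.norm.pow 6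
            exact h2.measurable.ennreal_ofReal
      _ ≤ ENNReal.ofReal B := by
          refine (liminf_le_liminf (v := fun _ => ENNReal.ofReal B)
            (Eventually.of_forall hle)).trans ?_
          simp
  have hInt : Integrable fun x => ‖q x‖ ^ 6 := by
    refine ⟨(hqc.norm.pow 6).aestronglyMeasurable, ?_⟩
    rw [hasFiniteIntegral_iff_ofReal (Eventually.of_forall fun x => by positivity)]
    exact hfatou.trans_lt ENNReal.ofReal_lt_top
  refine ⟨hInt, ?_⟩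
  rw [← ofReal_integral_eq_lintegral_ofReal hInt
    (Eventually.of_forall fun x => by positivity)] at hfatou
  have hT0 : 0 ≤ T := integral_nonneg fun x => by positivity
  have hB0 : 0 ≤ B := by positivity
  have h2 := (ENNReal.ofReal_le_ofReal_iff hB0).1 hfatou
  rw [hB, le_div_iff₀ hAκ, mul_comm] at h2
  exact h2

end Vale.Agent.P371S
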