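import Mathlib

namespace Vale.Agent.P371S

open MeasureTheory ComplexConjugate
open scoped ENNReal

def IsH1 (ψ ψ' : ℝ → ℂ) : Prop :=
  MemLp ψ 2 volume ∧ MemLp ψ' 2 volume ∧ ∀ a b : ℝ, ψ b - ψ a = ∫ x in a..b, ψ' x

def IsEigen (V : ℝ → ℝ) (lam : ℝ) (ψ : ℝ → ℂ) : Prop :=
  ∃ ψ' : ℝ → ℂ, IsH1 ψ ψ' ∧ ∀ η η' : ℝ → ℂ, IsH1 η η' →
    (∫ x, conj (η' x) * ψ' x) - (∫ x, conj (η x) * ((V x : ℂ) * ψ x)) =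
      (lam : ℂ) * ∫ x, conj (η x) * ψ x

def IsOrthonormal {ι : Type} [DecidableEq ι] (ψ : ι → ℝ → ℂ) : Prop :=
  ∀ i j, ∫ x, conj (ψ i x) * ψ j x = if i = j then 1 else 0

noncomputable def TrNeg (γ : ℝ) (V : ℝ → ℝ) : ℝ≥0∞ :=
  ⨆ (n : ℕ) (lam : Fin n → ℝ) (ψ : Fin n → ℝ → ℂ)
    (_ : ∀ i, lam i < 0 ∧ IsEigen V (lam i) (ψ i)) (_ : IsOrthonormal ψ),
    ∑ i, ENNReal.ofReal ((-lam i) ^ γ)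

noncomputable def LT (γ : ℝ) : ℝ≥0∞ :=
  ⨆ (V : ℝ → ℝ) (_ : Measurable V) (_ : ∀ x, 0 ≤ V x)
    (_ : 0 < ∫⁻ x, ENNReal.ofReal (V x ^ (γ + 1 / 2)))
    (_ : ∫⁻ x, ENNReal.ofReal (V x ^ (γ + 1 / 2)) < ⊤),
    TrNeg γ V / ∫⁻ x, ENNReal.ofReal (V x ^ (γ + 1 / 2))

noncomputable def Lcl (γ : ℝ) : ℝ :=
  Real.Gamma (γ + 1) / (2 * √Real.pi * Real.Gamma (γ + 3 / 2))

end Vale.Agent.P371S
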