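import Mathlib
import Vale.Agent.P371S.Approx3

namespace Vale.Agent.P371S

open MeasureTheory Set Filter Topology

noncomputable def ep (c : ℝ) : ℝ :=
  (7066394522099938579998684129843746168606643200 - 16472174783886129103136291676264522677668390880
      * c + 33230406683157185101899574629609324116281966800 * c ^ 2 -
      39088092724723877418922243445642950233101393373 * c ^ 3 +
      24208353201388936393944582742855631257553250000 * c ^ 4 -
      6106016619106244351494456283687097703125000000 * c ^ 5) /
    2839309567079189827049076430658093419067407872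

theorem ep_cont : Continuous ep := by
  unfold ep
  fun_prop

theorem ep_nonneg (c : ℝ) (h0 : 0 ≤ c) (h1 : c ≤ 1) : 0 ≤ ep c := by
  have h2 : 0 ≤ 1 - c := by linarith
  have h : ep c = (7066394522099938579998684129843746168606643200 * (c ^ 0 * (1 - c) ^ 5) + 18859797826613563796857128972954208165364825120 * (c ^ 1 * (1 - c) ^ 4) + 38005652768612054489341249222988695091674835280 * (c ^ 2 * (1 - c) ^ 3) + 32434023842430289067945571684035347735800593747 * (c ^ 3 * (1 - c) ^ 2) + 15166661276367913349247073684558343272556016134 * (c ^ 4 * (1 - c) ^ 1) + 2838870278929809202289850096714130928547075747 * (c ^ 5 * (1 - c) ^ 0)) /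
      2839309567079189827049076430658093419067407872 := by
    unfold ep
    ring
  rw [h]
  positivity

theorem ep_cube (c : ℝ) (h0 : 0 ≤ c) (h1 : c ≤ 1) : c * ep c ^ 3 ≤ 1 := by
  obtain ⟨y, hy0, hy⟩ : ∃ y : ℝ, 0 ≤ y ∧ y ^ 3 = c := by
    refine ⟨c ^ (1 / 3 : ℝ), by positivity, ?_⟩
    rw [← Real.rpow_natCast, ← Real.rpow_mul h0]
    norm_num
  have h2 : 1 - y * ep c = ((3 * y - 2) * (42 * y - 37) * (75 * y - 74)) ^ 2 *
      (94686021074202997602963286994090069472 + 455300115222804784059355131941658065920 * y +
      1233730940573722692945411236317853196144 * y ^ 2 +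
      2307838094750422018981786061678297999760 * y ^ 3 +
      3273363523957037596648027009727171328296 * y ^ 4 +
      3595819388161241566856621141270028985320 * y ^ 5 +
      3105929044114290705229664745334897065573 * y ^ 6 +
      2061622069449919527592665063210019605300 * y ^ 7 +
      1028301048271109507981066167343919997500 * y ^ 8 + 346561197928212775343872646254853250000
      * y ^ 9 + 68374531722026195811925268426831250000 * y ^ 10) /
      2839309567079189827049076430658093419067407872 := by
    rw [← hy]
    unfold ep
    ring
  have h3 : 0 ≤ 1 - y * ep c := by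
    rw [h2]
    positivity
  have h4 : 0 ≤ y * ep c := mul_nonneg hy0 (ep_nonneg c h0 h1)
  have h5 : c * ep c ^ 3 = (y * ep c) ^ 3 := by
    rw [← hy]
    ring
  rw [h5]
  exact pow_le_one₀ h4 (by linarith)

theorem icos_step (n : ℕ) : ∫ t in (-(Real.pi / 2))..(Real.pi / 2), Real.cos t ^ (n + 2) =
    (n + 1) / (n + 2) * ∫ t in (-(Real.pi / 2))..(Real.pi / 2), Real.cos t ^ n := by
  rw [integral_cos_pow]
  simp

theorem ep_J : (1.81905 : ℝ) ≤ ∫ t in (-(Real.pi / 2))..(Real.pi / 2),
    Real.cos t ^ 2 * ep (Real.cos t) ^ 2 := by
  have i0 : ∫ t in (-(Real.pi / 2))..(Real.pi / 2), Real.cos t ^ 0 = Real.pi := by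
    simp
  have i1 : ∫ t in (-(Real.pi / 2))..(Real.pi / 2), Real.cos t ^ 1 = 2 := by
    simp only [pow_one]
    rw [integral_cos]
    simp
    norm_num
  have i2 : ∫ t in (-(Real.pi / 2))..(Real.pi / 2), Real.cos t ^ 2 = 1 / 2 * Real.pi := by
    refine (icos_step 0).trans ?_
    rw [i0]
    push_cast
    ring
  have i3 : ∫ t in (-(Real.pi / 2))..(Real.pi / 2), Real.cos t ^ 3 = 4 / 3 := by
    refine (icos_step 1).trans ?_
    rw [i1]
    push_cast
    ring
  have i4 : ∫ t in (-(Real.pi / 2))..(Real.pi / 2), Real.cos t ^ 4 = 3 / 8 * Real.pi := by
    refine (icos_step 2).trans ?_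
    rw [i2]
    push_cast
    ring
  have i5 : ∫ t in (-(Real.pi / 2))..(Real.pi / 2), Real.cos t ^ 5 = 16 / 15 := by
    refine (icos_step 3).trans ?_
    rw [i3]
    push_cast
    ring
  have i6 : ∫ t in (-(Real.pi / 2))..(Real.pi / 2), Real.cos t ^ 6 = 5 / 16 * Real.pi := by
    refine (icos_step 4).trans ?_
    rw [i4]
    push_cast
    ring
  have i7 : ∫ t in (-(Real.pi / 2))..(Real.pi / 2), Real.cos t ^ 7 = 32 / 35 := by
    refine (icos_step 5).trans ?_
    rw [i5]
    push_cast
    ring
  have i8 : ∫ t in (-(Real.pi / 2))..(Real.pi / 2), Real.cos t ^ 8 = 35 / 128 * Real.pi := by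
    refine (icos_step 6).trans ?_
    rw [i6]
    push_cast
    ring
  have i9 : ∫ t in (-(Real.pi / 2))..(Real.pi / 2), Real.cos t ^ 9 = 256 / 315 := by
    refine (icos_step 7).trans ?_
    rw [i7]
    push_cast
    ring
  have i10 : ∫ t in (-(Real.pi / 2))..(Real.pi / 2), Real.cos t ^ 10 = 63 / 256 * Real.pi := by
    refine (icos_step 8).trans ?_
    rw [i8]
    push_cast
    ring
  have i11 : ∫ t in (-(Real.pi / 2))..(Real.pi / 2), Real.cos t ^ 11 = 512 / 693 := by
    refine (icos_step 9).trans ?_
    rw [i9]
    push_cast
    ring
  have i12 : ∫ t in (-(Real.pi / 2))..(Real.pi / 2), Real.cos t ^ 12 = 231 / 1024 * Real.pi := by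
    refine (icos_step 10).trans ?_
    rw [i10]
    push_cast
    ring
  have hsq : ∀ t, Real.cos t ^ 2 * ep (Real.cos t) ^ 2 =
      (49933931541964019352488308324444522671211184722033345919431958412649935575054531172106240000 / 2839309567079189827049076430658093419067407872 ^ 2) * Real.cos t ^ 2 +
      (-232797771319851364647157551803214444693892388986973821720059963598157243166758938044588032000 / 2839309567079189827049076430658093419067407872 ^ 2) * Real.cos t ^ 3 +
      (740970869616924288275506640815715591464613295409927694374997396105903141632650091572158694400 / 2839309567079189827049076430658093419067407872 ^ 2) * Real.cos t ^ 4 +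
      (-1647177902667812311138422417318658706348262658273971799543124183256593844129653539163676595200 / 2839309567079189827049076430658093419067407872 ^ 2) * Real.cos t ^ 5 +
      (2734123267891527316562391479428625486565164537991032449958819217417140003068588188310713516480 / 2839309567079189827049076430658093419067407872 ^ 2) * Real.cos t ^ 6 +
      (-3481649930527927037110912459226516068262247096741583290715886294904258542131473021294572032800 / 2839309567079189827049076430658093419067407872 ^ 2) * Real.cos t ^ 7 +
      (3337944582846403840574461438719299855088216297902758544221803296296135321506424218898288317129 / 2839309567079189827049076430658093419067407872 ^ 2) * Real.cos t ^ 8 +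
      (-2298327540231547708430861174088329529223320678346890316336726147745932666811584623989224500000 / 2839309567079189827049076430658093419067407872 ^ 2) * Real.cos t ^ 9 +
      (1063389452295857719133321758084812128325926810785858547214381201733619282616827378343750000000 / 2839309567079189827049076430658093419067407872 ^ 2) * Real.cos t ^ 10 +
      (-295633213937749400581579730793590876615245702108400384185143524820213086764757812500000000000 / 2839309567079189827049076430658093419067407872 ^ 2) * Real.cos t ^ 11 +
      (37283438952801650712811342971349271917476858650311868235912153222389650634765625000000000000 / 2839309567079189827049076430658093419067407872 ^ 2) * Real.cos t ^ 12 := by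
    intro t
    unfold ep
    ring
  simp only [hsq]
  rw [intervalIntegral.integral_add (Continuous.intervalIntegrable (by fun_prop) _ _)
    (Continuous.intervalIntegrable (by fun_prop) _ _)]
  rw [intervalIntegral.integral_add (Continuous.intervalIntegrable (by fun_prop) _ _)
    (Continuous.intervalIntegrable (by fun_prop) _ _)]
  rw [intervalIntegral.integral_add (Continuous.intervalIntegrable (by fun_prop) _ _)
    (Continuous.intervalIntegrable (by fun_prop) _ _)]
  rw [intervalIntegral.integral_add (Continuous.intervalIntegrable (by fun_prop) _ _)
    (Continuous.intervalIntegrable (by fun_prop) _ _)]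
  rw [intervalIntegral.integral_add (Continuous.intervalIntegrable (by fun_prop) _ _)
    (Continuous.intervalIntegrable (by fun_prop) _ _)]
  rw [intervalIntegral.integral_add (Continuous.intervalIntegrable (by fun_prop) _ _)
    (Continuous.intervalIntegrable (by fun_prop) _ _)]
  rw [intervalIntegral.integral_add (Continuous.intervalIntegrable (by fun_prop) _ _)
    (Continuous.intervalIntegrable (by fun_prop) _ _)]
  rw [intervalIntegral.integral_add (Continuous.intervalIntegrable (by fun_prop) _ _)
    (Continuous.intervalIntegrable (by fun_prop) _ _)]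
  rw [intervalIntegral.integral_add (Continuous.intervalIntegrable (by fun_prop) _ _)
    (Continuous.intervalIntegrable (by fun_prop) _ _)]
  rw [intervalIntegral.integral_add (Continuous.intervalIntegrable (by fun_prop) _ _)
    (Continuous.intervalIntegrable (by fun_prop) _ _)]
  simp only [intervalIntegral.integral_const_mul, i2, i3, i4, i5, i6, i7, i8, i9, i10, i11, i12]
  have hpi := Real.pi_gt_d20
  norm_num
  linarith

end Vale.Agent.P371S
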