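import Mathlib
import Vale.Agent.P371S.Defs
import Vale.Agent.P371S.Poly

namespace Vale.Agent.P371S

open MeasureTheory Set Filter Topology ComplexConjugate
open scoped RealInnerProductSpace ENNReal

theorem coreIneq (E : Type*) [NormedAddCommGroup E] [InnerProductSpace ℝ E] :
    CoreIneq E 2.363 := by
  intro q q' hq hq'c hne hi hi' κ hκ hG
  have h := vector_core q q' hq hq'c hne hi hi' κ hκ hG (0.9095) (by norm_num) ep ep_cont
    ep_nonneg ep_cube
  refine le_trans (mul_le_mul_of_nonneg_right ?_ (integral_nonneg fun x => by positivity)) h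
  have hJ := ep_J
  set J := ∫ t in (-(Real.pi / 2))..(Real.pi / 2), Real.cos t ^ 2 * ep (Real.cos t) ^ 2
  have hpi := Real.pi_gt_d6
  rw [div_mul_eq_mul_div]
  refine div_le_div_of_nonneg_right ?_ (by positivity)
  have h2 : (1.5047 : ℝ) ≤ 3 * 0.9095 ^ 2 * J - 4 * 0.9095 ^ 3 := by
    norm_num
    linarith
  calc (2.363 : ℝ) ≤ 3.141592 / 2 * 1.5047 := by norm_num
    _ ≤ Real.pi / 2 * (3 * 0.9095 ^ 2 * J - 4 * 0.9095 ^ 3) :=
        mul_le_mul (by linarith) h2 (by norm_num) (by positivity)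

variable {ι : Type} [Fintype ι]

noncomputable def vec (ψ : ι → ℝ → ℂ) (x : ℝ) : PiLp 2 (fun _ : Option ι => ℂ) :=
  WithLp.toLp 2 fun o => o.elim 0 fun i => ψ i x

theorem vec_norm (ψ : ι → ℝ → ℂ) (x : ℝ) : ‖vec ψ x‖ ^ 2 = ∑ i, ‖ψ i x‖ ^ 2 := by
  rw [PiLp.norm_sq_eq_of_L2, Fintype.sum_option]
  simp [vec]

theorem vec_memLp (ψ : ι → ℝ → ℂ) (h : ∀ i, MemLp (ψ i) 2 volume) :
    MemLp (vec ψ) 2 volume := by
  refine MemLp.of_eval_piLp fun o => ?_
  cases o with
  | none => simp [vec]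
  | some i => simpa [vec] using h i

theorem conj_mul_integrable {f g : ℝ → ℂ} (hf : MemLp f 2 volume) (hg : MemLp g 2 volume) :
    Integrable fun x => conj (f x) * g x := by
  have h1 : MemLp (fun x => conj (f x)) 2 volume := hf.star
  exact h1.integrable_mul hg

variable [DecidableEq ι]

theorem gram_bound (ψ : ι → ℝ → ℂ) (h : ∀ i, MemLp (ψ i) 2 volume) (ho : IsOrthonormal ψ)
    (e : PiLp 2 (fun _ : Option ι => ℂ)) : ∫ x, ⟪e, vec ψ x⟫ ^ 2 ≤ 1 * ‖e‖ ^ 2 := by
  set F : ℝ → ℂ := fun x => ∑ i, conj (e (some i)) * ψ i x with hF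
  have hre : ∀ x, ⟪e, vec ψ x⟫ = (F x).re := by
    intro x
    rw [PiLp.inner_apply, Fintype.sum_option]
    simp only [hF, Complex.re_sum]
    simp only [vec, Complex.inner, Option.elim, zero_mul, Complex.zero_re, zero_add]
    exact Finset.sum_congr rfl fun i _ => by rw [mul_comm]
  have hint : ∀ i j, Integrable fun x => conj (ψ i x) * ψ j x :=
    fun i j => conj_mul_integrable (h i) (h j)
  have hFe : ∀ x, ((‖F x‖ ^ 2 : ℝ) : ℂ) =
      ∑ i, ∑ j, (e (some i) * conj (e (some j))) * (conj (ψ i x) * ψ j x) := by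
    intro x
    rw [← Complex.normSq_eq_norm_sq, Complex.normSq_eq_conj_mul_self]
    simp only [hF, map_sum, map_mul, Complex.conj_conj]
    rw [Finset.sum_mul_sum]
    refine Finset.sum_congr rfl fun i _ => Finset.sum_congr rfl fun j _ => ?_
    ring
  have hFi : Integrable fun x => ((‖F x‖ ^ 2 : ℝ) : ℂ) := by
    simp only [hFe]
    exact integrable_finsetSum _ fun i _ => integrable_finsetSum _ fun j _ =>
      (hint i j).const_mul _
  have hFr : Integrable fun x => ‖F x‖ ^ 2 := by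
    have := hFi.re
    simpa only [RCLike.re_to_complex, Complex.ofReal_re] using this
  have hF2 : ((∫ x, ‖F x‖ ^ 2 : ℝ) : ℂ) = ((∑ i, ‖e (some i)‖ ^ 2 : ℝ) : ℂ) := by
    rw [← integral_complex_ofReal]
    simp only [hFe]
    rw [integral_finsetSum _ fun i _ => integrable_finsetSum _ fun j _ =>
      (hint i j).const_mul _]
    rw [Complex.ofReal_sum]
    refine Finset.sum_congr rfl fun i _ => ?_
    rw [integral_finsetSum _ fun j _ => (hint i j).const_mul _]
    simp only [integral_const_mul, ho i]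
    simp [Complex.mul_conj, Complex.normSq_eq_norm_sq]
  have hF3 : ∫ x, ‖F x‖ ^ 2 = ∑ i, ‖e (some i)‖ ^ 2 := Complex.ofReal_injective hF2
  calc ∫ x, ⟪e, vec ψ x⟫ ^ 2 ≤ ∫ x, ‖F x‖ ^ 2 := by
        refine integral_mono_of_nonneg (Eventually.of_forall fun x => sq_nonneg _) hFr
          (Eventually.of_forall fun x => ?_)
        show ⟪e, vec ψ x⟫ ^ 2 ≤ ‖F x‖ ^ 2
        rw [hre, ← sq_abs]
        exact pow_le_pow_left₀ (abs_nonneg _) (Complex.abs_re_le_norm _) 2
    _ = ∑ i, ‖e (some i)‖ ^ 2 := hF3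
    _ ≤ 1 * ‖e‖ ^ 2 := by
        rw [one_mul, PiLp.norm_sq_eq_of_L2, Fintype.sum_option]
        have : 0 ≤ ‖e none‖ ^ 2 := by positivity
        linarith

theorem kinetic_orth (ψ ψ' : ι → ℝ → ℂ) (h : ∀ i, IsH1 (ψ i) (ψ' i)) (ho : IsOrthonormal ψ) :
    (Integrable fun x => (∑ i, ‖ψ i x‖ ^ 2) ^ 3) ∧
    2.363 * ∫ x, (∑ i, ‖ψ i x‖ ^ 2) ^ 3 ≤ ∑ i, ∫ x, ‖ψ' i x‖ ^ 2 := by
  have hm := vec_memLp ψ fun i => (h i).1
  have hm' := vec_memLp ψ' fun i => (h i).2.1
  have hl : ∀ a b, IntervalIntegrable (vec ψ') volume a b := fun a b =>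
    ((hm'.locallyIntegrable (by norm_num)).integrableOn_isCompact isCompact_uIcc).intervalIntegrable
  have hli : ∀ i a b, IntervalIntegrable (ψ' i) volume a b := fun i a b =>
    (((h i).2.1.locallyIntegrable (by norm_num)).integrableOn_isCompact
      isCompact_uIcc).intervalIntegrable
  have hF : ∀ a b, vec ψ b - vec ψ a = ∫ x in a..b, vec ψ' x := by
    intro a b
    ext o
    have h1 : (∫ x in a..b, vec ψ' x) o = ∫ x in a..b, (vec ψ' x) o := by
      have := (PiLp.proj (𝕜 := ℝ) 2 (fun _ : Option ι => ℂ) o).intervalIntegral_comp_comm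
        (hl a b)
      exact this.symm
    rw [h1]
    cases o with
    | none => simp [vec]
    | some i =>
      have := (h i).2.2 a b
      simpa [vec] using this
  set w : PiLp 2 (fun _ : Option ι => ℂ) := WithLp.toLp 2 fun o => o.elim 1 fun _ => 0 with hwdef
  have hw : ‖w‖ = 1 := by
    have h1 : ‖w‖ ^ 2 = 1 := by
      rw [PiLp.norm_sq_eq_of_L2, Fintype.sum_option]
      simp [hwdef]
    have h2 := norm_nonneg w
    nlinarith
  have hwq : ∀ x, ⟪w, vec ψ x⟫ = 0 := by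
    intro x
    rw [PiLp.inner_apply, Fintype.sum_option]
    simp [vec, hwdef]
  have h6 : ∀ x, ‖vec ψ x‖ ^ 6 = (∑ i, ‖ψ i x‖ ^ 2) ^ 3 := by
    intro x
    rw [← vec_norm]
    ring
  have hk := kinetic 2.363 (coreIneq _) (by norm_num) (vec ψ) (vec ψ')
    (by simpa using hm.integrable_norm_pow (by norm_num))
    (by simpa using hm'.integrable_norm_pow (by norm_num)) hl hF w hw hwq 1 one_pos
    (gram_bound ψ (fun i => (h i).1) ho)
  simp only [h6, one_pow, div_one] at hk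
  refine ⟨hk.1, hk.2.trans (le_of_eq ?_)⟩
  simp only [vec_norm]
  rw [integral_finsetSum]
  intro i _
  simpa using (h i).2.1.integrable_norm_pow (by norm_num)

end Vale.Agent.P371S
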