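import Mathlib
import Vale.Agent.P371S.LT1

namespace Vale.Agent.P371S

open MeasureTheory Set Filter Topology ComplexConjugate
open scoped RealInnerProductSpace ENNReal

noncomputable def DD : ℝ := 1.18 * (2 / (3 * Real.pi))

theorem DD_pos : 0 < DD := by
  unfold DD
  positivity

theorem DD_lower : (0.250403 : ℝ) ≤ DD := by
  unfold DD
  have hpi := Real.pi_lt_d6
  have hpi0 := Real.pi_pos
  rw [← mul_div_assoc, le_div_iff₀ (by positivity)]
  linarith

theorem young {a r : ℝ} (ha : 0 ≤ a) (hr : 0 ≤ r) : a ^ 2 * r ≤ 2.363 * r ^ 3 + DD * a ^ 3 := by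
  have h1 : 0 ≤ 2.363 * ((r - 0.37559 * a) ^ 2 * (r + 2 * (0.37559 * a))) := by positivity
  have h2 : 0 ≤ (DD - 2 * 2.363 * 0.37559 ^ 3) * a ^ 3 := by
    have := DD_lower
    refine mul_nonneg ?_ (by positivity)
    norm_num
    linarith
  have h3 : 0 ≤ (3 * 2.363 * 0.37559 ^ 2 - 1) * (a ^ 2 * r) := by
    refine mul_nonneg (by norm_num) (by positivity)
  nlinarith

theorem rpow_three_half {v : ℝ} (hv : 0 ≤ v) : v ^ (3 / 2 : ℝ) = √v ^ 3 := by
  rw [Real.sqrt_eq_rpow, ← Real.rpow_natCast, ← Real.rpow_mul hv]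
  norm_num

theorem IsH1.continuous {ψ ψ' : ℝ → ℂ} (h : IsH1 ψ ψ') : Continuous ψ :=
  cont_of_ftc (fun a b => ((h.2.1.locallyIntegrable (by norm_num)).integrableOn_isCompact
      isCompact_uIcc).intervalIntegrable) h.2.2

variable {ι : Type} [Fintype ι] [DecidableEq ι]

theorem lt_key (ψ ψ' : ι → ℝ → ℂ) (h : ∀ i, IsH1 (ψ i) (ψ' i)) (ho : IsOrthonormal ψ)
    (U : ℝ → ℝ) (hU : Measurable U) (hU0 : ∀ x, 0 ≤ U x) :
    ∑ i, ∫⁻ x, ENNReal.ofReal (U x * ‖ψ i x‖ ^ 2) ≤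
      ENNReal.ofReal (∑ i, ∫ x, ‖ψ' i x‖ ^ 2) +
      ENNReal.ofReal DD * ∫⁻ x, ENNReal.ofReal (U x ^ (3 / 2 : ℝ)) := by
  obtain ⟨hi, hk⟩ := kinetic_orth ψ ψ' h ho
  have hψm : ∀ i, Measurable (ψ i) := fun i => (h i).continuous.measurable
  rw [← lintegral_finsetSum _ fun i _ => by
    have := hψm i
    fun_prop]
  have hpt : ∀ x, ∑ i, ENNReal.ofReal (U x * ‖ψ i x‖ ^ 2) ≤
      ENNReal.ofReal (2.363 * (∑ i, ‖ψ i x‖ ^ 2) ^ 3) +
      ENNReal.ofReal DD * ENNReal.ofReal (U x ^ (3 / 2 : ℝ)) := by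
    intro x
    have hU0x := hU0 x
    rw [← ENNReal.ofReal_sum_of_nonneg fun i _ => by positivity, ← ENNReal.ofReal_mul DD_pos.le,
      ← ENNReal.ofReal_add (by positivity) (by have := DD_pos; positivity), ← Finset.mul_sum]
    refine ENNReal.ofReal_le_ofReal ?_
    have hy := young (Real.sqrt_nonneg (U x)) (r := ∑ i, ‖ψ i x‖ ^ 2)
      (Finset.sum_nonneg fun i _ => by positivity)
    rw [Real.sq_sqrt hU0x] at hy
    rw [rpow_three_half hU0x]
    exact hy
  refine (lintegral_mono hpt).trans ?_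
  have hm1 : Measurable fun x => ENNReal.ofReal DD * ENNReal.ofReal (U x ^ (3 / 2 : ℝ)) := by
    fun_prop
  rw [lintegral_add_right _ hm1, lintegral_const_mul _ (by fun_prop)]
  refine add_le_add_left ?_ _
  rw [← ofReal_integral_eq_lintegral_ofReal (hi.const_mul _)
    (Eventually.of_forall fun x => by positivity), integral_const_mul]
  exact ENNReal.ofReal_le_ofReal hk

theorem ofReal_integral_le (f : ℝ → ℝ) :
    ENNReal.ofReal (∫ x, f x) ≤ ∫⁻ x, ENNReal.ofReal (f x) := by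
  by_cases hf : Integrable f
  · have h1 : ∫ x, f x ≤ ∫ x, max (f x) 0 := integral_mono hf hf.pos_part fun x => le_max_left _ _
    refine (ENNReal.ofReal_le_ofReal h1).trans ?_
    rw [ofReal_integral_eq_lintegral_ofReal hf.pos_part
      (Eventually.of_forall fun x => le_max_right _ _)]
    refine lintegral_mono fun x => ?_
    simp
  · rw [integral_undef hf]
    simp

theorem eigen_eq {V : ℝ → ℝ} {lam : ℝ} {ψ ψ' : ℝ → ℂ} (hH : IsH1 ψ ψ')
    (h : ∀ η η' : ℝ → ℂ, IsH1 η η' →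
    (∫ x, conj (η' x) * ψ' x) - (∫ x, conj (η x) * ((V x : ℂ) * ψ x)) =
      (lam : ℂ) * ∫ x, conj (η x) * ψ x) (h1 : ∫ x, conj (ψ x) * ψ x = 1) :
    (∫ x, ‖ψ' x‖ ^ 2) - (∫ x, V x * ‖ψ x‖ ^ 2) = lam ∧ ∫ x, ‖ψ x‖ ^ 2 = 1 := by
  have e1 : ∫ x, conj (ψ' x) * ψ' x = ((∫ x, ‖ψ' x‖ ^ 2 : ℝ) : ℂ) := by
    rw [← integral_complex_ofReal]
    refine integral_congr_ae (Eventually.of_forall fun x => ?_)
    simp only
    rw [← Complex.normSq_eq_norm_sq, Complex.normSq_eq_conj_mul_self]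
  have e2 : ∫ x, conj (ψ x) * ψ x = ((∫ x, ‖ψ x‖ ^ 2 : ℝ) : ℂ) := by
    rw [← integral_complex_ofReal]
    refine integral_congr_ae (Eventually.of_forall fun x => ?_)
    simp only
    rw [← Complex.normSq_eq_norm_sq, Complex.normSq_eq_conj_mul_self]
  have e3 : ∫ x, conj (ψ x) * ((V x : ℂ) * ψ x) = ((∫ x, V x * ‖ψ x‖ ^ 2 : ℝ) : ℂ) := by
    rw [← integral_complex_ofReal]
    refine integral_congr_ae (Eventually.of_forall fun x => ?_)
    simp only
    rw [Complex.ofReal_mul, ← Complex.normSq_eq_norm_sq, Complex.normSq_eq_conj_mul_self]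
    ring
  have h2 := h ψ ψ' hH
  rw [h1, e1, e3, mul_one, ← Complex.ofReal_sub] at h2
  rw [e2] at h1
  exact ⟨Complex.ofReal_injective h2, Complex.ofReal_injective (by simpa using h1)⟩

theorem pos_part_ineq {V : ℝ → ℝ} {ψ : ℝ → ℂ} (hn : ∫ x, ‖ψ x‖ ^ 2 = 1)
    {τ : ℝ} (hτ : 0 ≤ τ) :
    ENNReal.ofReal ((∫ x, V x * ‖ψ x‖ ^ 2) - τ) ≤
      ∫⁻ x, ENNReal.ofReal (max (V x - τ) 0 * ‖ψ x‖ ^ 2) := by
  have hψi : Integrable fun x => ‖ψ x‖ ^ 2 := by
    by_contra hc
    rw [integral_undef hc] at hn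
    exact zero_ne_one hn
  by_cases hint : Integrable fun x => V x * ‖ψ x‖ ^ 2
  · have h1 : (∫ x, V x * ‖ψ x‖ ^ 2) - τ = ∫ x, (V x - τ) * ‖ψ x‖ ^ 2 := by
      simp only [sub_mul]
      rw [integral_sub hint (hψi.const_mul τ), integral_const_mul, hn, mul_one]
    rw [h1]
    refine (ofReal_integral_le _).trans (lintegral_mono fun x => ENNReal.ofReal_le_ofReal ?_)
    exact mul_le_mul_of_nonneg_right (le_max_left _ _) (by positivity)
  · rw [integral_undef hint, zero_sub, ENNReal.ofReal_of_nonpos (by linarith)]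
    exact bot_le

theorem lt_tau {n : ℕ} (V : ℝ → ℝ) (hV : Measurable V) (lam : Fin n → ℝ)
    (ψ : Fin n → ℝ → ℂ) (h : ∀ i, lam i < 0 ∧ IsEigen V (lam i) (ψ i)) (ho : IsOrthonormal ψ)
    (τ : ℝ) (hτ : 0 ≤ τ) :
    ∑ i, ENNReal.ofReal (-lam i - τ) ≤
      ENNReal.ofReal DD * ∫⁻ x, ENNReal.ofReal (max (V x - τ) 0 ^ (3 / 2 : ℝ)) := by
  choose ψ' hH hE using fun i => (h i).2
  have hsum : ∑ i, ENNReal.ofReal (-lam i - τ) =
      ∑ i : {i : Fin n // τ < -lam i}, ENNReal.ofReal (-lam i.1 - τ) := by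
    rw [← Finset.sum_subtype (Finset.univ.filter fun i => τ < -lam i) (by simp)
      (fun i => ENNReal.ofReal (-lam i - τ))]
    refine (Finset.sum_filter_of_ne fun i _ hne => ?_).symm
    by_contra hc
    exact hne (ENNReal.ofReal_of_nonpos (by linarith))
  rw [hsum]
  have ho' : IsOrthonormal fun i : {i : Fin n // τ < -lam i} => ψ i.1 := by
    intro i j
    rw [ho i.1 j.1]
    simp only [Subtype.ext_iff]
  have hk := lt_key (fun i : {i : Fin n // τ < -lam i} => ψ i.1) (fun i => ψ' i.1)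
    (fun i => hH i.1) ho' (fun x => max (V x - τ) 0) (by fun_prop) (fun x => le_max_right _ _)
  have hT0 : ∀ i : {i : Fin n // τ < -lam i}, 0 ≤ ∫ x, ‖ψ' i.1 x‖ ^ 2 := fun i =>
    integral_nonneg fun x => by positivity
  have hpt : ∀ i : {i : Fin n // τ < -lam i},
      ENNReal.ofReal (-lam i.1 - τ) + ENNReal.ofReal (∫ x, ‖ψ' i.1 x‖ ^ 2) ≤
      ∫⁻ x, ENNReal.ofReal (max (V x - τ) 0 * ‖ψ i.1 x‖ ^ 2) := by
    intro i
    have hi := i.2
    obtain ⟨h1, h2⟩ := eigen_eq (hH i.1) (hE i.1) (by simpa using ho i.1 i.1)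
    rw [← ENNReal.ofReal_add (by linarith) (hT0 i)]
    have h3 : -lam i.1 - τ + ∫ x, ‖ψ' i.1 x‖ ^ 2 = (∫ x, V x * ‖ψ i.1 x‖ ^ 2) - τ := by linarith
    rw [h3]
    exact pos_part_ineq h2 hτ
  have hs := Finset.sum_le_sum fun (i : {i : Fin n // τ < -lam i})
    (_ : i ∈ Finset.univ) => hpt i
  rw [Finset.sum_add_distrib, ← ENNReal.ofReal_sum_of_nonneg fun i _ => hT0 i] at hs
  have hfin := hs.trans hk
  rw [add_comm] at hfin
  exact (ENNReal.add_le_add_iff_left ENNReal.ofReal_ne_top).1 hfin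

theorem beta_scale {a b v : ℝ} (ha : 0 < a) (hb : 1 < b) (hv : 0 ≤ v) :
    ∫⁻ τ in Ioi 0, ENNReal.ofReal (τ ^ (a - 1)) * ENNReal.ofReal (max (v - τ) 0 ^ (b - 1)) =
      ENNReal.ofReal (v ^ (a + b - 1) * ProbabilityTheory.beta a b) := by
  have hb0 : 0 < b := by linarith
  have hbeta := ProbabilityTheory.beta_pos ha hb0
  rcases hv.eq_or_lt with hv0 | hv0
  · have h0 : ∀ τ ∈ Ioi (0 : ℝ), ENNReal.ofReal (τ ^ (a - 1)) *
        ENNReal.ofReal (max (v - τ) 0 ^ (b - 1)) = 0 := by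
      intro τ hτ
      have hτ0 : 0 < τ := hτ
      rw [max_eq_right (by linarith), Real.zero_rpow (by linarith), ENNReal.ofReal_zero, mul_zero]
    rw [setLIntegral_congr_fun measurableSet_Ioi h0, ← hv0, Real.zero_rpow (by linarith)]
    simp
  · set F : ℝ → ℝ≥0∞ := (Ioi (0 : ℝ)).indicator fun τ => ENNReal.ofReal (τ ^ (a - 1)) *
      ENNReal.ofReal (max (v - τ) 0 ^ (b - 1)) with hF
    have hFm : Measurable F := by
      refine Measurable.indicator ?_ measurableSet_Ioi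
      fun_prop
    rw [← lintegral_indicator measurableSet_Ioi, ← hF]
    have h1 : ∫⁻ τ, F τ = ENNReal.ofReal v * ∫⁻ x, F (v * x) := by
      conv_lhs => rw [← Real.smul_map_volume_mul_left hv0.ne']
      rw [lintegral_smul_measure, lintegral_map hFm (by fun_prop), abs_of_pos hv0, smul_eq_mul]
    have h2 : ∀ x, F (v * x) = ENNReal.ofReal (v ^ (a + b - 2) * ProbabilityTheory.beta a b) *
        ProbabilityTheory.betaPDF a b x := by
      intro x
      by_cases hx : 0 < x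
      · have hvx : v * x ∈ Ioi (0 : ℝ) := mul_pos hv0 hx
        rw [hF, indicator_of_mem hvx]
        by_cases hx1 : x < 1
        · rw [ProbabilityTheory.betaPDF_of_pos_lt_one hx hx1,
            ← ENNReal.ofReal_mul (by positivity), ← ENNReal.ofReal_mul (by positivity)]
          congr 1
          have h3 : max (v - v * x) 0 = v * (1 - x) := by
            rw [max_eq_left (by nlinarith)]
            ring
          rw [h3, Real.mul_rpow hv0.le hx.le, Real.mul_rpow hv0.le (by linarith)]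
          have h4 : v ^ (a + b - 2) = v ^ (a - 1) * v ^ (b - 1) := by
            rw [← Real.rpow_add hv0]
            congr 1
            ring
          rw [h4]
          field_simp
        · rw [ProbabilityTheory.betaPDF_eq_zero_of_one_le (not_lt.1 hx1), mul_zero,
            max_eq_right (by nlinarith [not_lt.1 hx1]), Real.zero_rpow (by linarith)]
          simp
      · have hvx : v * x ∉ Ioi (0 : ℝ) := fun hc => hx ((mul_pos_iff_of_pos_left hv0).1 hc)
        rw [hF, indicator_of_notMem hvx,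
          ProbabilityTheory.betaPDF_eq_zero_of_nonpos (not_lt.1 hx), mul_zero]
    rw [h1]
    simp only [h2]
    rw [lintegral_const_mul' _ _ ENNReal.ofReal_ne_top,
      ProbabilityTheory.lintegral_betaPDF_eq_one ha hb0, mul_one, ← ENNReal.ofReal_mul hv0.le]
    congr 1
    have h5 : v ^ (a + b - 1) = v * v ^ (a + b - 2) := by
      rw [← Real.rpow_one_add' hv0.le (by linarith)]
      congr 1
      ring
    rw [h5]
    ring

end Vale.Agent.P371S
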