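import Mathlib
import Vale.Agent.P371S.LT2

namespace Vale.Agent.P371S

open MeasureTheory Set Filter Topology ComplexConjugate
open scoped RealInnerProductSpace ENNReal

theorem gamma_five_half : Real.Gamma (5 / 2) = 3 / 4 * √Real.pi := by
  have h1 : Real.Gamma (3 / 2 + 1) = 3 / 2 * Real.Gamma (3 / 2) := Real.Gamma_add_one (by norm_num)
  have h2 : Real.Gamma (1 / 2 + 1) = 1 / 2 * Real.Gamma (1 / 2) := Real.Gamma_add_one (by norm_num)
  rw [show (5 / 2 : ℝ) = 3 / 2 + 1 by norm_num, h1, show (3 / 2 : ℝ) = 1 / 2 + 1 by norm_num, h2,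
    Real.Gamma_one_half_eq]
  ring

theorem DD_eq : DD = 1.18 * Lcl 1 := by
  unfold DD Lcl
  rw [show (1 : ℝ) + 3 / 2 = 5 / 2 by norm_num, gamma_five_half, show (1 : ℝ) + 1 = 2 by norm_num,
    Real.Gamma_two]
  have h := Real.sq_sqrt Real.pi_pos.le
  have h0 : 0 < √Real.pi := Real.sqrt_pos.2 Real.pi_pos
  have h1 : 2 * √Real.pi * (3 / 4 * √Real.pi) = 3 / 2 * Real.pi := by
    rw [← h]
    ring_nf
    rw [Real.sqrt_sq h0.le]
  rw [h1]
  field_simp

theorem beta_ratio {γ : ℝ} (hγ : 1 < γ) :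
    DD * ProbabilityTheory.beta (γ - 1) (5 / 2) / ProbabilityTheory.beta (γ - 1) 2 =
      1.18 * Lcl γ := by
  rw [DD_eq]
  unfold Lcl ProbabilityTheory.beta
  have h1 : 0 < Real.Gamma (γ - 1) := Real.Gamma_pos_of_pos (by linarith)
  have h2 : 0 < Real.Gamma (γ + 3 / 2) := Real.Gamma_pos_of_pos (by linarith)
  have h3 : 0 < Real.Gamma (γ + 1) := Real.Gamma_pos_of_pos (by linarith)
  have h4 : 0 < √Real.pi := Real.sqrt_pos.2 Real.pi_pos
  rw [show γ - 1 + 5 / 2 = γ + 3 / 2 by ring, show γ - 1 + 2 = γ + 1 by ring, Real.Gamma_two,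
    show (1 : ℝ) + 3 / 2 = 5 / 2 by norm_num, gamma_five_half, show (1 : ℝ) + 1 = 2 by norm_num,
    Real.Gamma_two]
  field_simp

theorem lt_all (γ : ℝ) (hγ : 1 ≤ γ) {n : ℕ} (V : ℝ → ℝ) (hV : Measurable V)
    (hV0 : ∀ x, 0 ≤ V x) (lam : Fin n → ℝ)
    (ψ : Fin n → ℝ → ℂ) (h : ∀ i, lam i < 0 ∧ IsEigen V (lam i) (ψ i)) (ho : IsOrthonormal ψ) :
    ∑ i, ENNReal.ofReal ((-lam i) ^ γ) ≤
      ENNReal.ofReal (1.18 * Lcl γ) * ∫⁻ x, ENNReal.ofReal (V x ^ (γ + 1 / 2)) := by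
  rcases hγ.eq_or_lt with hγ1 | hγ1
  · have h1 := lt_tau V hV lam ψ h ho 0 le_rfl
    have h2 : ∀ x, max (V x) 0 = V x := fun x => max_eq_left (hV0 x)
    simp only [sub_zero, h2] at h1
    rw [← hγ1, ← DD_eq, show (1 : ℝ) + 1 / 2 = 3 / 2 by norm_num]
    simpa using h1
  · have hb2 := ProbabilityTheory.beta_pos (α := γ - 1) (β := 2) (by linarith) (by norm_num)
    have hb5 := ProbabilityTheory.beta_pos (α := γ - 1) (β := 5 / 2) (by linarith) (by norm_num)
    have hlhs : ∀ i, ENNReal.ofReal ((-lam i) ^ γ) * ENNReal.ofReal (ProbabilityTheory.beta (γ - 1) 2) =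
        ∫⁻ τ in Ioi 0, ENNReal.ofReal (τ ^ (γ - 1 - 1)) * ENNReal.ofReal (-lam i - τ) := by
      intro i
      have hl := (h i).1
      have h3 := beta_scale (a := γ - 1) (b := 2) (v := -lam i) (by linarith) (by norm_num)
        (by linarith)
      rw [show γ - 1 + 2 - 1 = γ by ring] at h3
      rw [← ENNReal.ofReal_mul (Real.rpow_nonneg (by linarith) _), ← h3]
      refine lintegral_congr fun τ => ?_
      rw [show (2 : ℝ) - 1 = 1 by norm_num, Real.rpow_one]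
      congr 1
      simp
    have hrhs : ∀ x, ∫⁻ τ in Ioi 0, ENNReal.ofReal (τ ^ (γ - 1 - 1)) *
        ENNReal.ofReal (max (V x - τ) 0 ^ (3 / 2 : ℝ)) =
        ENNReal.ofReal (ProbabilityTheory.beta (γ - 1) (5 / 2)) *
          ENNReal.ofReal (V x ^ (γ + 1 / 2)) := by
      intro x
      have h3 := beta_scale (a := γ - 1) (b := 5 / 2) (v := V x) (by linarith) (by norm_num)
        (hV0 x)
      rw [show (5 : ℝ) / 2 - 1 = 3 / 2 by norm_num, show γ - 1 + 5 / 2 - 1 = γ + 1 / 2 by ring] at h3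
      rw [h3, mul_comm, ENNReal.ofReal_mul hb5.le]
    have hmain : (∑ i, ENNReal.ofReal ((-lam i) ^ γ)) *
        ENNReal.ofReal (ProbabilityTheory.beta (γ - 1) 2) ≤
        ENNReal.ofReal DD * (ENNReal.ofReal (ProbabilityTheory.beta (γ - 1) (5 / 2)) *
          ∫⁻ x, ENNReal.ofReal (V x ^ (γ + 1 / 2))) := by
      rw [Finset.sum_mul]
      simp only [hlhs]
      rw [← lintegral_finsetSum _ fun i _ => by fun_prop]
      calc ∫⁻ τ in Ioi 0, ∑ i, ENNReal.ofReal (τ ^ (γ - 1 - 1)) * ENNReal.ofReal (-lam i - τ)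
          ≤ ∫⁻ τ in Ioi 0, ENNReal.ofReal (τ ^ (γ - 1 - 1)) * (ENNReal.ofReal DD *
            ∫⁻ x, ENNReal.ofReal (max (V x - τ) 0 ^ (3 / 2 : ℝ))) := by
            refine setLIntegral_mono' measurableSet_Ioi fun τ hτ => ?_
            rw [← Finset.mul_sum]
            have hτ0 : 0 < τ := hτ
            gcongr
            exact lt_tau V hV lam ψ h ho τ hτ0.le
        _ = ENNReal.ofReal DD * ∫⁻ τ in Ioi 0, ∫⁻ x, ENNReal.ofReal (τ ^ (γ - 1 - 1)) *
            ENNReal.ofReal (max (V x - τ) 0 ^ (3 / 2 : ℝ)) := by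
            rw [← lintegral_const_mul' _ _ ENNReal.ofReal_ne_top]
            refine lintegral_congr fun τ => ?_
            rw [lintegral_const_mul _ (by fun_prop)]
            ring
        _ = ENNReal.ofReal DD * ∫⁻ x, ∫⁻ τ in Ioi 0, ENNReal.ofReal (τ ^ (γ - 1 - 1)) *
            ENNReal.ofReal (max (V x - τ) 0 ^ (3 / 2 : ℝ)) := by
            rw [lintegral_lintegral_swap]
            apply Measurable.aemeasurable
            fun_prop
        _ = _ := by
            simp only [hrhs]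
            rw [lintegral_const_mul _ (by fun_prop)]
    have hb2' : ENNReal.ofReal (ProbabilityTheory.beta (γ - 1) 2) ≠ 0 := by
      simpa using hb2
    rw [← ENNReal.le_div_iff_mul_le (Or.inl hb2') (Or.inl ENNReal.ofReal_ne_top)] at hmain
    refine hmain.trans (le_of_eq ?_)
    rw [← beta_ratio hγ1, ← mul_assoc, ← ENNReal.ofReal_mul DD_pos.le,
      ENNReal.ofReal_div_of_pos hb2, ENNReal.div_eq_inv_mul, ENNReal.div_eq_inv_mul, mul_assoc]

theorem Lcl_pos {γ : ℝ} (hγ : 1 ≤ γ) : 0 < Lcl γ := by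
  unfold Lcl
  have h2 : 0 < Real.Gamma (γ + 3 / 2) := Real.Gamma_pos_of_pos (by linarith)
  have h3 : 0 < Real.Gamma (γ + 1) := Real.Gamma_pos_of_pos (by linarith)
  positivity

theorem LT_le (γ : ℝ) (hγ : 1 ≤ γ) : LT γ ≤ ENNReal.ofReal (1.18 * Lcl γ) := by
  unfold LT
  refine iSup_le fun V => iSup_le fun hV => iSup_le fun hV0 => iSup_le fun hp => iSup_le fun hf => ?_
  rw [ENNReal.div_le_iff_le_mul (Or.inl hp.ne') (Or.inl hf.ne)]
  unfold TrNeg
  exact iSup_le fun n => iSup_le fun lam => iSup_le fun ψ => iSup_le fun h => iSup_le fun ho =>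
    lt_all γ hγ V hV hV0 lam ψ h ho

end Vale.Agent.P371S
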